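import Mathlib

/-! Blocks, the density zero ideal and the soft threshold rule. -/

namespace Vale.Agent.P068
open Set Filter

structure Blocks (E : Type) where
  blk : ℕ → Finset E
  β : E → ℕ
  mem_blk : ∀ x j, x ∈ blk j ↔ β x = j
  tends : ∀ m : ℕ, ∀ᶠ j in atTop, m ≤ (blk j).card

def shrink (d : ℤ) (θ : ℕ) : ℤ := max (d - θ) 0 + min (d + θ) 0

lemma shrink_mono {d d' : ℤ} (h : d ≤ d') (θ : ℕ) : shrink d θ ≤ shrink d' θ := by
  unfold shrink; omega

lemma shrink_neg (d : ℤ) (θ : ℕ) : shrink (-d) θ = - shrink d θ := by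
  unfold shrink; omega

lemma shrink_eq_zero {d : ℤ} {θ : ℕ} (h1 : d ≤ θ) (h2 : -d ≤ θ) : shrink d θ = 0 := by
  unfold shrink; omega

namespace Blocks
variable {E : Type} (B : Blocks E)

open Classical in
noncomputable def cnt (W : Set E) (j : ℕ) : ℕ := ((B.blk j).filter (fun x => x ∈ W)).card

def Null (W : Set E) : Prop := ∀ t : ℕ, ∀ᶠ j in atTop, t * B.cnt W j ≤ (B.blk j).card

lemma cnt_mono {W W' : Set E} (h : W ⊆ W') (j : ℕ) : B.cnt W j ≤ B.cnt W' j := by
  classical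
  unfold cnt
  apply Finset.card_le_card
  intro x hx
  simp only [Finset.mem_filter] at hx ⊢
  exact ⟨hx.1, h hx.2⟩

lemma cnt_union_le (W W' : Set E) (j : ℕ) : B.cnt (W ∪ W') j ≤ B.cnt W j + B.cnt W' j := by
  classical
  unfold cnt
  refine le_trans (Finset.card_le_card ?_) (Finset.card_union_le _ _)
  intro x hx
  simp only [Finset.mem_filter, Finset.mem_union, mem_union] at hx ⊢
  tauto

lemma cnt_congr {W W' : Set E} {j : ℕ} (h : ∀ x, B.β x = j → (x ∈ W ↔ x ∈ W')) :
    B.cnt W j = B.cnt W' j := by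
  classical
  unfold cnt
  congr 1
  ext x
  simp only [Finset.mem_filter, B.mem_blk]
  constructor
  · rintro ⟨h1, h2⟩; exact ⟨h1, (h x h1).1 h2⟩
  · rintro ⟨h1, h2⟩; exact ⟨h1, (h x h1).2 h2⟩

lemma cnt_add_compl (W : Set E) (j : ℕ) : B.cnt W j + B.cnt Wᶜ j = (B.blk j).card := by
  classical
  unfold cnt
  have := Finset.card_filter_add_card_filter_not (s := B.blk j) (fun x => x ∈ W)
  simpa using this

lemma cnt_univ (j : ℕ) : B.cnt univ j = (B.blk j).card := by
  classical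
  unfold cnt
  simp

lemma cnt_empty (j : ℕ) : B.cnt ∅ j = 0 := by
  classical
  unfold cnt
  simp

lemma cnt_diff_add {W : Set E} {j : ℕ} (N : Finset E) (hN : ∀ x ∈ N, x ∈ W ∧ B.β x = j) :
    B.cnt (W \ N) j + N.card = B.cnt W j := by
  classical
  unfold cnt
  rw [← Finset.card_union_of_disjoint]
  · congr 1
    ext x
    simp only [Finset.mem_filter, Finset.mem_union, Set.mem_sdiff, Finset.mem_coe, B.mem_blk]
    constructor
    · rintro (⟨h1, h2, -⟩ | h)
      · exact ⟨h1, h2⟩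
      · exact ⟨(hN x h).2, (hN x h).1⟩
    · rintro ⟨h1, h2⟩
      by_cases hx : x ∈ N
      · exact Or.inr hx
      · exact Or.inl ⟨h1, h2, hx⟩
  · rw [Finset.disjoint_left]
    intro x hx hx'
    simp only [Finset.mem_filter, Set.mem_sdiff, Finset.mem_coe] at hx
    exact hx.2.2 hx'

lemma cnt_insert {W : Set E} {x : E} (hx : x ∉ W) :
    B.cnt (insert x W) (B.β x) = B.cnt W (B.β x) + 1 := by
  have := B.cnt_diff_add (W := insert x W) (j := B.β x) {x} (by simp)
  rw [← this]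
  simp only [Finset.coe_singleton, Finset.card_singleton]
  congr 2
  ext y
  simp only [Set.mem_sdiff, mem_insert_iff, mem_singleton_iff]
  constructor
  · rintro ⟨h | h, h'⟩
    · exact absurd h h'
    · exact h
  · intro h
    exact ⟨Or.inr h, fun h' => hx (h' ▸ h)⟩

variable {B}

lemma Null.mono {W W' : Set E} (h : B.Null W') (hs : W ⊆ W') : B.Null W := by
  intro t
  filter_upwards [h t] with j hj
  exact le_trans (Nat.mul_le_mul_left _ (B.cnt_mono hs j)) hj

lemma Null.union {W W' : Set E} (h : B.Null W) (h' : B.Null W') : B.Null (W ∪ W') := by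
  intro t
  filter_upwards [h (2 * t), h' (2 * t)] with j hj hj'
  have := Nat.mul_le_mul_left t (B.cnt_union_le W W' j)
  nlinarith

lemma null_empty : B.Null ∅ := by
  intro t
  simp [B.cnt_empty]

lemma null_singleton (x : E) : B.Null {x} := by
  intro t
  filter_upwards [eventually_gt_atTop (B.β x)] with j hj
  have : B.cnt {x} j = B.cnt ∅ j := by
    apply B.cnt_congr
    intro y hy
    simp only [mem_singleton_iff, mem_empty_iff_false, iff_false]
    rintro rfl
    omega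
  rw [this, B.cnt_empty]
  simp

lemma not_null_univ : ¬ B.Null univ := by
  intro h
  obtain ⟨j, h1, h2⟩ := ((h 2).and (B.tends 1)).exists
  rw [B.cnt_univ] at h1
  omega

variable (B)

noncomputable def dd (Y W : Set E) (j : ℕ) : ℤ := (B.cnt W j : ℤ) - B.cnt Y j

noncomputable def term (Y W : Set E) (t j : ℕ) : ℤ := shrink (B.dd Y W j) ((B.blk j).card / t)

noncomputable def FF (Y W : Set E) (t : ℕ) : ℤ := ∑ᶠ j, B.term Y W t j

def Near (Y W : Set E) : Prop := B.Null (W \ Y) ∧ B.Null (Y \ W)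

def Le0 (Y W : Set E) : Prop := ∀ᶠ t in atTop, B.FF Y W t ≤ 0

def Ge0 (Y W : Set E) : Prop := ∃ᶠ t in atTop, 0 ≤ B.FF Y W t

def Tie (Y W : Set E) : Prop := B.Near Y W ∧ B.Le0 Y W ∧ B.Ge0 Y W

lemma cnt_le_add_diff (W Y : Set E) (j : ℕ) : B.cnt W j ≤ B.cnt Y j + B.cnt (W \ Y) j := by
  refine le_trans (B.cnt_mono ?_ j) (B.cnt_union_le _ _ j)
  intro x hx
  by_cases h : x ∈ Y
  · exact Or.inl h
  · exact Or.inr ⟨hx, h⟩

variable {B}

lemma unif_zero {Y I X : Set E} (hX : B.Null (X \ Y)) (hI : B.Null (Y \ I)) {T : ℕ} (hT : 1 ≤ T) :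
    ∃ J, ∀ j, J ≤ j → ∀ W, I ⊆ W → W ⊆ X → ∀ t, 1 ≤ t → t ≤ T → B.term Y W t j = 0 := by
  obtain ⟨J, hJ⟩ := eventually_atTop.1 ((hX T).and (hI T))
  refine ⟨J, fun j hj W h1 h2 t ht htT => ?_⟩
  obtain ⟨a1, a2⟩ := hJ j hj
  have b1 := B.cnt_le_add_diff W Y j
  have b2 := B.cnt_le_add_diff Y W j
  have c1 : B.cnt (W \ Y) j ≤ B.cnt (X \ Y) j := B.cnt_mono (sdiff_subset_sdiff_left h2) j
  have c2 : B.cnt (Y \ W) j ≤ B.cnt (Y \ I) j := B.cnt_mono (sdiff_subset_sdiff_right h1) j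
  have d1 : B.cnt (X \ Y) j ≤ (B.blk j).card / t := by
    rw [Nat.le_div_iff_mul_le (by omega)]
    nlinarith
  have d2 : B.cnt (Y \ I) j ≤ (B.blk j).card / t := by
    rw [Nat.le_div_iff_mul_le (by omega)]
    nlinarith
  unfold term dd
  apply shrink_eq_zero <;> omega

lemma FF_eq_sum {Y W : Set E} {t J : ℕ} (h : ∀ j, J ≤ j → B.term Y W t j = 0) :
    B.FF Y W t = ∑ j ∈ Finset.range J, B.term Y W t j := by
  unfold FF
  apply finsum_eq_sum_of_support_subset
  intro j hj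
  simp only [Function.mem_support] at hj
  simp only [Finset.coe_range, mem_Iio]
  by_contra hc
  exact hj (h j (by omega))

lemma Near.zero {Y W : Set E} (h : B.Near Y W) {t : ℕ} (ht : 1 ≤ t) :
    ∃ J, ∀ j, J ≤ j → B.term Y W t j = 0 := by
  obtain ⟨J, hJ⟩ := unif_zero h.1 h.2 ht
  exact ⟨J, fun j hj => hJ j hj W subset_rfl subset_rfl t ht le_rfl⟩

lemma FF_mono {Y W W' : Set E} (h : B.Near Y W) (h' : B.Near Y W') (hs : W ⊆ W') {t : ℕ}
    (ht : 1 ≤ t) : B.FF Y W t ≤ B.FF Y W' t := by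
  obtain ⟨J, hJ⟩ := h.zero ht
  obtain ⟨J', hJ'⟩ := h'.zero ht
  rw [FF_eq_sum (J := max J J') (fun j hj => hJ j (by omega)),
    FF_eq_sum (J := max J J') (fun j hj => hJ' j (by omega))]
  apply Finset.sum_le_sum
  intro j _
  unfold term dd
  apply shrink_mono
  have := B.cnt_mono hs j
  omega

lemma FF_change {Y W W' : Set E} (h : B.Near Y W) {j : ℕ}
    (hW : ∀ x, B.β x ≠ j → (x ∈ W ↔ x ∈ W')) {t : ℕ} (ht : 1 ≤ t) :
    B.FF Y W' t = B.FF Y W t - B.term Y W t j + B.term Y W' t j := by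
  obtain ⟨J, hJ⟩ := h.zero ht
  have he : ∀ i, i ≠ j → B.term Y W' t i = B.term Y W t i := by
    intro i hi
    unfold term dd
    rw [B.cnt_congr (W := W) (W' := W') (fun x hx => hW x (by omega))]
  rw [FF_eq_sum (J := max J (j + 1)) (fun i hi => hJ i (by omega)),
    FF_eq_sum (W := W') (J := max J (j + 1))
      (fun i hi => by rw [he i (by omega)]; exact hJ i (by omega))]
  have hj : j ∈ Finset.range (max J (j + 1)) := by simp
  rw [← Finset.add_sum_erase _ _ hj, ← Finset.add_sum_erase _ (fun i => B.term Y W t i) hj]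
  rw [Finset.sum_congr rfl (fun i hi => he i (Finset.ne_of_mem_erase hi))]
  ring

lemma Near.insert {Y W : Set E} (h : B.Near Y W) (x : E) : B.Near Y (insert x W) := by
  refine ⟨(h.1.union (null_singleton x)).mono ?_, h.2.mono ?_⟩
  · rintro y ⟨h1 | h1, h2⟩
    · exact Or.inr h1
    · exact Or.inl ⟨h1, h2⟩
  · exact sdiff_subset_sdiff_right (subset_insert _ _)

lemma Near.diff {Y W N : Set E} (h : B.Near Y W) (hN : B.Null N) : B.Near Y (W \ N) := by
  refine ⟨h.1.mono (sdiff_subset_sdiff_left sdiff_subset), (h.2.union hN).mono ?_⟩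
  rintro y ⟨h1, h2⟩
  by_cases h3 : y ∈ W
  · right
    by_contra h4
    exact h2 ⟨h3, h4⟩
  · exact Or.inl ⟨h1, h3⟩

lemma Near.between {Y I X W : Set E} (hI : B.Near Y I) (hX : B.Near Y X) (h1 : I ⊆ W)
    (h2 : W ⊆ X) : B.Near Y W :=
  ⟨hX.1.mono (sdiff_subset_sdiff_left h2), hI.2.mono (sdiff_subset_sdiff_right h1)⟩

lemma FF_insert {Y W : Set E} (h : B.Near Y W) {x : E} (hx : x ∉ W) {t : ℕ} (ht : 1 ≤ t) :
    B.FF Y (insert x W) t = B.FF Y W t - shrink (B.dd Y W (B.β x)) ((B.blk (B.β x)).card / t)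
      + shrink (B.dd Y W (B.β x) + 1) ((B.blk (B.β x)).card / t) := by
  rw [FF_change (W' := insert x W) (j := B.β x) h ?_ ht]
  · unfold term dd
    rw [B.cnt_insert hx]
    congr 2
    push_cast
    ring
  · intro y hy
    simp only [mem_insert_iff]
    constructor
    · exact Or.inr
    · rintro (rfl | h)
      · exact absurd rfl hy
      · exact h

lemma FF_insert_le {Y W : Set E} (h : B.Near Y W) (x : E) {t : ℕ} (ht : 1 ≤ t) :
    B.FF Y (insert x W) t ≤ B.FF Y W t + 1 := by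
  by_cases hx : x ∈ W
  · rw [insert_eq_of_mem hx]; omega
  · rw [FF_insert h hx ht]
    generalize (B.blk (B.β x)).card / t = θ
    unfold shrink
    omega

lemma FF_insert_eq {Y W : Set E} (h : B.Near Y W) {x : E} (hx : x ∉ W) :
    ∀ᶠ t in atTop, B.FF Y (insert x W) t = B.FF Y W t + 1 := by
  filter_upwards [eventually_gt_atTop (B.blk (B.β x)).card] with t ht
  rw [FF_insert h hx (by omega), Nat.div_eq_of_lt ht]
  unfold shrink
  omega

lemma Tie.eq_of_subset {Y W W' : Set E} (h : B.Tie Y W) (h' : B.Tie Y W') (hs : W ⊆ W') :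
    W = W' := by
  by_contra hne
  obtain ⟨x, hx', hx⟩ : ∃ x, x ∈ W' ∧ x ∉ W := by
    by_contra hc
    push Not at hc
    exact hne (Subset.antisymm hs hc)
  obtain ⟨t, h1, h2, h3, h4⟩ := (h.2.2.and_eventually
    (h'.2.1.and ((FF_insert_eq h.1 hx).and (eventually_ge_atTop 1)))).exists
  have := FF_mono (h.1.insert x) h'.1 (insert_subset hx' hs) h4
  omega

lemma Tie.exchange {Y W : Set E} (h : B.Tie Y W) {x y : E} (hx : x ∈ W) (hy : y ∉ W) :
    B.Tie Y (insert y (W \ {x})) := by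
  have hn : B.Near Y (W \ {x}) := h.1.diff (null_singleton x)
  have e1 := FF_insert_eq hn (x := x) (by simp)
  have e2 := FF_insert_eq hn (x := y) (fun h => hy h.1)
  rw [insert_sdiff_singleton, insert_eq_of_mem hx] at e1
  refine ⟨hn.insert y, ?_, ?_⟩
  · filter_upwards [e1, e2, h.2.1] with t a b c
    omega
  · refine (h.2.2.and_eventually (e1.and e2)).mono ?_
    rintro t ⟨a, b, c⟩
    omega

lemma ge0_of_not_le0 {Y W : Set E} (h : ¬ B.Le0 Y W) : B.Ge0 Y W := by
  unfold Le0 at h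
  rw [not_eventually] at h
  exact h.mono (fun t ht => by omega)

lemma greedy_fin {Y : Set E} (D : Set E) (hD : D.Finite) :
    ∀ W, B.Near Y W → B.Le0 Y W → B.Ge0 Y (W ∪ D) → ∃ C, W ⊆ C ∧ C ⊆ W ∪ D ∧ B.Tie Y C := by
  induction D, hD using Set.Finite.induction_on with
  | empty =>
    intro W h1 h2 h3
    rw [union_empty] at h3 ⊢
    exact ⟨W, subset_rfl, subset_rfl, h1, h2, h3⟩
  | @insert a D _ _ ih =>
    intro W h1 h2 h3
    by_cases hg : B.Ge0 Y W
    · exact ⟨W, subset_rfl, subset_union_left, h1, h2, hg⟩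
    · unfold Ge0 at hg
      rw [not_frequently] at hg
      have e : W ∪ insert a D = insert a W ∪ D := by
        rw [union_insert, insert_union]
      rw [e] at h3 ⊢
      obtain ⟨C, c1, c2, c3⟩ := ih (insert a W) (h1.insert a) (by
        filter_upwards [hg, eventually_ge_atTop 1] with t ht ht1
        have := FF_insert_le h1 a ht1
        omega) h3
      exact ⟨C, (subset_insert _ _).trans c1, c2, c3⟩

lemma finite_lt (J : ℕ) : {x : E | B.β x < J}.Finite := by
  refine ((Finset.range J).finite_toSet.biUnion (fun j _ => (B.blk j).finite_toSet)).subset ?_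
  intro x hx
  simp only [mem_iUnion, Finset.coe_range, mem_Iio, Finset.mem_coe, B.mem_blk]
  exact ⟨B.β x, hx, rfl⟩

lemma greedy {Y I X : Set E} (hI : B.Near Y I) (hX : B.Near Y X) (hs : I ⊆ X)
    (h1 : B.Le0 Y I) (h2 : B.Ge0 Y X) : ∃ C, I ⊆ C ∧ C ⊆ X ∧ B.Tie Y C := by
  obtain ⟨t0, ht0⟩ := eventually_atTop.1 (h1.and (eventually_ge_atTop 1))
  have ht1 : 1 ≤ t0 := (ht0 t0 le_rfl).2
  have hz : ∀ c ⊆ {W : Set E | I ⊆ W ∧ W ⊆ X ∧ ∀ t, t0 ≤ t → B.FF Y W t ≤ 0},
      IsChain (· ⊆ ·) c → c.Nonempty →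
      ∃ ub ∈ {W : Set E | I ⊆ W ∧ W ⊆ X ∧ ∀ t, t0 ≤ t → B.FF Y W t ≤ 0}, ∀ s ∈ c, s ⊆ ub := by
    intro c hc hch hne
    obtain ⟨W0, hW0⟩ := hne
    have u1 : I ⊆ ⋃₀ c := (hc hW0).1.trans (subset_sUnion_of_mem hW0)
    have u2 : ⋃₀ c ⊆ X := sUnion_subset (fun W hW => (hc hW).2.1)
    refine ⟨⋃₀ c, ⟨u1, u2, fun t ht => ?_⟩, fun s hs => subset_sUnion_of_mem hs⟩
    obtain ⟨J, hJ⟩ := unif_zero hX.1 hI.2 (T := t) (by omega)
    obtain ⟨W, hWc, hW⟩ := hch.directedOn.exists_mem_subset_of_finite_of_subset_sUnion ⟨W0, hW0⟩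
      (s := {x : E | B.β x < J} ∩ ⋃₀ c) ((finite_lt J).subset inter_subset_left)
      inter_subset_right
    obtain ⟨w1, w2, w3⟩ := hc hWc
    have := w3 t ht
    rw [FF_eq_sum (J := J) (fun j hj => hJ j hj W w1 w2 t (by omega) le_rfl)] at this
    rw [FF_eq_sum (J := J) (fun j hj => hJ j hj _ u1 u2 t (by omega) le_rfl)]
    refine le_of_eq_of_le (Finset.sum_congr rfl (fun j hj => ?_)) this
    unfold term dd
    rw [B.cnt_congr (W := ⋃₀ c) (W' := W)]
    intro x hx
    constructor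
    · intro h
      apply hW
      refine ⟨?_, h⟩
      simp only [Finset.mem_range] at hj
      simp only [mem_ofPred_eq]
      omega
    · intro h
      exact subset_sUnion_of_mem hWc h
  obtain ⟨W, -, hW⟩ := zorn_subset_nonempty
    {W : Set E | I ⊆ W ∧ W ⊆ X ∧ ∀ t, t0 ≤ t → B.FF Y W t ≤ 0} hz I
    ⟨subset_rfl, hs, fun t ht => (ht0 t ht).1⟩
  · obtain ⟨⟨w1, w2, w3⟩, hmax⟩ := hW
    have hn : B.Near Y W := hI.between hX w1 w2
    have hle : B.Le0 Y W := eventually_atTop.2 ⟨t0, w3⟩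
    by_cases hf : (X \ W).Finite
    · obtain ⟨C, c1, c2, c3⟩ := greedy_fin (X \ W) hf W hn hle (by
        rwa [union_sdiff_cancel w2])
      exact ⟨C, w1.trans c1, by rwa [union_sdiff_cancel w2] at c2, c3⟩
    · refine ⟨W, w1, w2, hn, hle, ?_⟩
      unfold Ge0
      rw [frequently_atTop]
      intro T
      obtain ⟨J, hJ⟩ := unif_zero hX.1 hI.2 (T := max T 1) (le_max_right _ _)
      obtain ⟨x, ⟨hx1, hx2⟩, hx3⟩ := (Set.Infinite.sdiff hf (finite_lt (B := B) J)).nonempty
      simp only [mem_ofPred_eq, not_lt] at hx3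
      have hins : insert x W ⊆ X := insert_subset hx1 w2
      have : ¬ ∀ t, t0 ≤ t → B.FF Y (insert x W) t ≤ 0 := by
        intro hc
        exact hx2 (hmax ⟨w1.trans (subset_insert _ _), hins, hc⟩ (subset_insert _ _)
          (mem_insert _ _))
      push Not at this
      obtain ⟨t, ht, hpos⟩ := this
      have hle1 := FF_insert_le hn x (t := t) (by omega)
      refine ⟨t, ?_, by omega⟩
      by_contra hc
      have z1 := hJ _ hx3 W w1 w2 t (by omega) (by omega)
      have z2 := hJ _ hx3 (insert x W) (w1.trans (subset_insert _ _)) hins t (by omega) (by omega)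
      have := FF_change (W' := insert x W) (j := B.β x) hn (by
        intro y hy
        simp only [mem_insert_iff]
        constructor
        · exact Or.inr
        · rintro (rfl | h)
          · exact absurd rfl hy
          · exact h) (t := t) (by omega)
      have := w3 t ht
      omega

end Blocks
end Vale.Agent.P068
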