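import Vale.Agent.P068.Blocks

/-! Domination and the interval property inside one class. -/

namespace Vale.Agent.P068
open Set Filter

namespace Blocks
variable {E : Type} {B : Blocks E}

lemma exists_sub_card {D : Set E} {j n : ℕ} (h : n ≤ B.cnt D j) :
    ∃ N : Finset E, (∀ x ∈ N, x ∈ D ∧ B.β x = j) ∧ N.card = n := by
  classical
  unfold cnt at h
  obtain ⟨N, h1, h2⟩ := Finset.exists_subset_card_eq h
  refine ⟨N, fun x hx => ?_, h2⟩
  have := h1 hx
  simp only [Finset.mem_filter, B.mem_blk] at this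
  exact ⟨this.2, this.1⟩

lemma dom_le {Y W D : Set E} (h : B.Near Y W) (hD : D ⊆ W) (hp : ¬ B.Null D) :
    ∃ N, N ⊆ D ∧ B.Null N ∧ B.Le0 Y (W \ N) := by
  unfold Null at hp
  push Not at hp
  obtain ⟨t1, ht1⟩ := hp
  have key : ∀ t : ℕ, ∃ᶠ j in atTop, ∃ N : Finset E, (∀ x ∈ N, x ∈ D ∧ B.β x = j) ∧
      t * N.card ≤ 3 * (B.blk j).card ∧ (3 * t1 + 1 ≤ t → B.FF Y (W \ N) t ≤ 0) := by
    intro t
    by_cases ht : 3 * t1 + 1 ≤ t
    · refine (ht1.and_eventually ((h.1 t).and ((h.2 t).and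
        (B.tends (t * (B.FF Y W t).natAbs))))).mono ?_
      rintro j ⟨a1, a2, a3, a4⟩
      have b1 := B.cnt_le_add_diff W Y j
      have b2 := B.cnt_le_add_diff Y W j
      have c1 : B.cnt (W \ Y) j ≤ (B.blk j).card / t := by
        rw [Nat.le_div_iff_mul_le (by omega)]
        nlinarith
      have c2 : B.cnt (Y \ W) j ≤ (B.blk j).card / t := by
        rw [Nat.le_div_iff_mul_le (by omega)]
        nlinarith
      have c3 : (B.FF Y W t).natAbs ≤ (B.blk j).card / t := by
        rw [Nat.le_div_iff_mul_le (by omega)]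
        nlinarith
      have c4 : t * ((B.blk j).card / t) ≤ (B.blk j).card := Nat.mul_div_le _ _
      have c5 : 3 * ((B.blk j).card / t) ≤ B.cnt D j := by
        by_contra hc
        push Not at hc
        have : 3 * t1 * ((B.blk j).card / t) ≤ t * ((B.blk j).card / t) :=
          Nat.mul_le_mul_right _ (by omega)
        nlinarith
      obtain ⟨N, hN1, hN2⟩ := exists_sub_card c5
      refine ⟨N, hN1, ?_, fun _ => ?_⟩
      · rw [hN2]; nlinarith
      · rw [FF_change (W' := W \ N) (j := j) h ?_ (by omega)]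
        · have e := B.cnt_diff_add (W := W) (j := j) N (fun x hx => ⟨hD (hN1 x hx).1, (hN1 x hx).2⟩)
          unfold term dd
          generalize (B.blk j).card / t = θ at *
          unfold shrink
          omega
        · intro x hx
          constructor
          · intro hw
            exact ⟨hw, fun hn => hx (hN1 x hn).2⟩
          · exact fun hw => hw.1
    · exact Eventually.frequently (Eventually.of_forall
        (fun j => ⟨∅, by simp, by simp, fun h => absurd h ht⟩))
  obtain ⟨φ, hφ, hN⟩ := extraction_forall_of_frequently key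
  choose N hN1 hN2 hN3 using hN
  have hnull : B.Null (⋃ t, (N t : Set E)) := by
    intro T
    filter_upwards [eventually_ge_atTop (φ (3 * T))] with j hj
    by_cases hc : ∃ t, φ t = j
    · obtain ⟨t, rfl⟩ := hc
      have ht : 3 * T ≤ t := hφ.le_iff_le.1 hj
      have e : B.cnt (⋃ t, (N t : Set E)) (φ t) = B.cnt (N t) (φ t) := by
        apply B.cnt_congr
        intro x hx
        simp only [mem_iUnion, Finset.mem_coe]
        constructor
        · rintro ⟨s, hs⟩
          have : φ s = φ t := (hN1 s x hs).2.symm.trans hx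
          rwa [← hφ.injective this]
        · exact fun h => ⟨t, h⟩
      have e2 := B.cnt_diff_add (W := (N t : Set E)) (j := φ t) (N t)
        (fun x hx => ⟨hx, (hN1 t x hx).2⟩)
      have e3 := hN2 t
      rw [e]
      have e4 : B.cnt (N t) (φ t) ≤ (N t).card := by
        rw [Set.sdiff_self] at e2
        have := B.cnt_empty (φ t)
        omega
      nlinarith
    · have e : B.cnt (⋃ t, (N t : Set E)) j = B.cnt ∅ j := by
        apply B.cnt_congr
        intro x hx
        simp only [mem_iUnion, Finset.mem_coe, mem_empty_iff_false, iff_false, not_exists]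
        intro s hs
        exact hc ⟨s, (hN1 s x hs).2.symm.trans hx⟩
      rw [e, B.cnt_empty]
      simp
  refine ⟨⋃ t, (N t : Set E), iUnion_subset (fun t x hx => (hN1 t x hx).1), hnull, ?_⟩
  filter_upwards [eventually_ge_atTop (3 * t1 + 1)] with t ht
  refine le_trans (FF_mono (h.diff hnull) (h.diff (hnull.mono (subset_iUnion _ t))) ?_
    (by omega)) (hN3 t ht)
  exact sdiff_subset_sdiff_right (subset_iUnion (fun t => (N t : Set E)) t)

lemma FF_compl (Y W : Set E) (t : ℕ) : B.FF Yᶜ Wᶜ t = - B.FF Y W t := by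
  unfold FF
  rw [← finsum_neg_distrib]
  congr 1
  ext j
  unfold term
  rw [← shrink_neg]
  congr 1
  unfold dd
  have := B.cnt_add_compl W j
  have := B.cnt_add_compl Y j
  omega

lemma Near.compl {Y W : Set E} (h : B.Near Y W) : B.Near Yᶜ Wᶜ := by
  refine ⟨h.2.mono ?_, h.1.mono ?_⟩
  · rintro x ⟨h1, h2⟩
    exact ⟨not_not.1 h2, h1⟩
  · rintro x ⟨h1, h2⟩
    exact ⟨not_not.1 h2, h1⟩

lemma dom_ge {Y W D : Set E} (h : B.Near Y W) (hD : D ⊆ Wᶜ) (hp : ¬ B.Null D) :
    ∃ N, N ⊆ D ∧ B.Null N ∧ B.Ge0 Y (W ∪ N) := by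
  obtain ⟨N, h1, h2, h3⟩ := dom_le h.compl hD hp
  refine ⟨N, h1, h2, Eventually.frequently ?_⟩
  filter_upwards [h3] with t ht
  have e : Wᶜ \ N = (W ∪ N)ᶜ := by
    rw [compl_union, Set.sdiff_eq]
  rw [e, FF_compl] at ht
  omega

lemma Near.union {Y W N : Set E} (h : B.Near Y W) (hN : B.Null N) : B.Near Y (W ∪ N) := by
  refine ⟨(h.1.union hN).mono ?_, h.2.mono (sdiff_subset_sdiff_right subset_union_left)⟩
  rintro y ⟨h1 | h1, h2⟩
  · exact Or.inl ⟨h1, h2⟩
  · exact Or.inr h1

lemma null_of_near {Y W : Set E} (h : B.Near Y W) (hW : B.Null W) : B.Null Y := by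
  refine (hW.union h.2).mono ?_
  intro x hx
  by_cases h' : x ∈ W
  · exact Or.inl h'
  · exact Or.inr ⟨hx, h'⟩

lemma interval_between {Y I X : Set E} (hY : ¬ B.Null Y) (hY' : ¬ B.Null Yᶜ) (hs : I ⊆ X)
    (h1 : B.Null (I \ Y)) (h2 : B.Null (Y \ X)) :
    ∃ C, B.Tie Y C ∧ (C ⊆ I ∨ X ⊆ C ∨ (I ⊆ C ∧ C ⊆ X)) := by
  set W := (Y ∪ I) ∩ X with hW
  have w1 : I ⊆ W := subset_inter subset_union_right hs
  have w2 : W ⊆ X := inter_subset_right
  have hn : B.Near Y W := by
    refine ⟨h1.mono ?_, h2.mono ?_⟩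
    · rintro x ⟨⟨h | h, -⟩, h'⟩
      · exact absurd h h'
      · exact ⟨h, h'⟩
    · rintro x ⟨h, h'⟩
      exact ⟨h, fun hx => h' ⟨Or.inl h, hx⟩⟩
  by_cases hle : B.Le0 Y W
  · by_cases hp : B.Null (X \ W)
    · have hX : B.Near Y X := by
        have := hn.union hp
        rwa [union_sdiff_cancel w2] at this
      by_cases hg : B.Ge0 Y X
      · obtain ⟨C, c1, c2, c3⟩ := greedy hn hX w2 hle hg
        exact ⟨C, c3, Or.inr (Or.inr ⟨w1.trans c1, c2⟩)⟩
      · have hl : B.Le0 Y X := by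
          by_contra hc
          exact hg (ge0_of_not_le0 hc)
        obtain ⟨N, n1, n2, n3⟩ := dom_ge hX (D := Xᶜ) subset_rfl
          (fun hc => hY' (null_of_near hX.compl hc))
        obtain ⟨C, c1, c2, c3⟩ := greedy hX (hX.union n2) subset_union_left hl n3
        exact ⟨C, c3, Or.inr (Or.inl c1)⟩
    · obtain ⟨N, n1, n2, n3⟩ := dom_ge hn (D := X \ W) (fun x hx => hx.2) hp
      obtain ⟨C, c1, c2, c3⟩ := greedy hn (hn.union n2) subset_union_left hle n3
      exact ⟨C, c3, Or.inr (Or.inr ⟨w1.trans c1,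
        c2.trans (union_subset w2 (n1.trans sdiff_subset))⟩)⟩
  · have hge := ge0_of_not_le0 hle
    by_cases hp : B.Null (W \ I)
    · have hI : B.Near Y I := by
        have := hn.diff hp
        rwa [Set.sdiff_sdiff_cancel_left w1] at this
      by_cases hl : B.Le0 Y I
      · obtain ⟨C, c1, c2, c3⟩ := greedy hI hn w1 hl hge
        exact ⟨C, c3, Or.inr (Or.inr ⟨c1, c2.trans w2⟩)⟩
      · obtain ⟨N, n1, n2, n3⟩ := dom_le hI (D := I) subset_rfl
          (fun hc => hY (null_of_near hI hc))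
        obtain ⟨C, c1, c2, c3⟩ := greedy (hI.diff n2) hI sdiff_subset n3 (ge0_of_not_le0 hl)
        exact ⟨C, c3, Or.inl c2⟩
    · obtain ⟨N, n1, n2, n3⟩ := dom_le hn (D := W \ I) sdiff_subset hp
      obtain ⟨C, c1, c2, c3⟩ := greedy (hn.diff n2) hn sdiff_subset n3 hge
      refine ⟨C, c3, Or.inr (Or.inr ⟨Subset.trans ?_ c1, c2.trans w2⟩)⟩
      intro x hx
      exact ⟨w1 hx, fun h => (n1 h).2 hx⟩

lemma Null.trans_diff {A C D : Set E} (h1 : B.Null (A \ C)) (h2 : B.Null (C \ D)) :
    B.Null (A \ D) := by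
  refine (h1.union h2).mono ?_
  rintro x ⟨h, h'⟩
  by_cases hc : x ∈ C
  · exact Or.inr ⟨hc, h'⟩
  · exact Or.inl ⟨h, hc⟩

lemma null_diff_of_subset {A C : Set E} (h : A ⊆ C) : B.Null (A \ C) := by
  rw [sdiff_eq_empty.2 h]
  exact null_empty

lemma interval {Y I X : Set E} (hY : ¬ B.Null Y) (hY' : ¬ B.Null Yᶜ) (hs : I ⊆ X)
    (h : B.Null (Y \ I) ∨ B.Null (X \ Y) ∨ (B.Null (I \ Y) ∧ B.Null (Y \ X))) :
    ∃ C, B.Tie Y C ∧ (C ⊆ I ∨ X ⊆ C ∨ (I ⊆ C ∧ C ⊆ X)) := by
  rcases h with h | h | h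
  · by_cases h' : B.Null (I \ Y)
    · exact interval_between hY hY' hs h' (h.trans_diff (null_diff_of_subset hs))
    · obtain ⟨C, c1, c2⟩ := interval_between hY hY' (empty_subset I)
        (null_diff_of_subset (empty_subset _)) h
      refine ⟨C, c1, Or.inl ?_⟩
      rcases c2 with c | c | c
      · exact c.trans (empty_subset _)
      · exact absurd (c1.1.1.mono (sdiff_subset_sdiff_left c)) h'
      · exact c.2
  · by_cases h' : B.Null (Y \ X)
    · exact interval_between hY hY' hs ((null_diff_of_subset hs).trans_diff h) h'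
    · obtain ⟨C, c1, c2⟩ := interval_between hY hY' (subset_univ X) h
        (null_diff_of_subset (subset_univ _))
      refine ⟨C, c1, Or.inr (Or.inl ?_)⟩
      rcases c2 with c | c | c
      · exact absurd (c1.1.2.mono (sdiff_subset_sdiff_right c)) h'
      · exact (subset_univ _).trans c
      · exact c.1
  · exact interval_between hY hY' hs h.1 h.2

end Blocks
end Vale.Agent.P068
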