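import Vale.Agent.P068.Part
import Vale.Agent.P068.Defs

/-! The double ray of bundles. -/

namespace Vale.Agent.P068
open Set

def edge (k : ℤ) (b : Bool) : ℤ :=
  if 1 ≤ k then (if b then k else k - 1) else (if b then k - 1 else k)

lemma edge_cases (k : ℤ) (b : Bool) : edge k b = k - 1 ∨ edge k b = k := by
  unfold edge
  split_ifs <;> simp

lemma edge_surj {k i : ℤ} (h : i = k - 1 ∨ i = k) : ∃ b, edge k b = i := by
  by_cases hk : 1 ≤ k
  · rcases h with h | h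
    · exact ⟨false, by simp [edge, hk, h]⟩
    · exact ⟨true, by simp [edge, hk, h]⟩
  · rcases h with h | h
    · exact ⟨true, by simp [edge, hk, h]⟩
    · exact ⟨false, by simp [edge, hk, h]⟩

variable (e : ℤ × Om ≃ ℕ)

noncomputable def phi (c : ℤ) : ℤ × (Om × Bool) ≃ ℕ :=
  Equiv.ofBijective (fun p => e (edge (2 * p.1 + c) p.2.2, p.2.1)) (by
    constructor
    · rintro ⟨m, w, b⟩ ⟨m', w', b'⟩ h
      have h' := e.injective h
      simp only [Prod.mk.injEq] at h' ⊢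
      obtain ⟨h1, h2⟩ := h'
      unfold edge at h1
      cases b <;> cases b' <;> simp only [Bool.false_eq_true, if_false, if_true] at h1 <;>
        split_ifs at h1 <;> simp [h2] <;> omega
    · intro n
      obtain ⟨⟨i, w⟩, rfl⟩ := e.surjective n
      obtain ⟨b, hb⟩ := edge_surj (k := 2 * ((i + 1 - c) / 2) + c) (i := i) (by omega)
      exact ⟨((i + 1 - c) / 2, w, b), by simp only [hb]⟩)

lemma phi_apply (c m : ℤ) (p : Om × Bool) : phi e c (m, p) = e (edge (2 * m + c) p.2, p.1) := rfl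

def secK (k : ℤ) (X : Set ℕ) : Set (Om × Bool) := {p | e (edge k p.2, p.1) ∈ X}

def Sp (𝓑 : Set (Set (Om × Bool))) (K : Set (Om × Bool)) : Prop := ∃ B ∈ 𝓑, B ⊆ K

structure Nice (𝓑 : Set (Set (Om × Bool))) (c : ℤ) (M : Matroid ℕ) : Prop where
  ground : M.E = univ
  dual : M.dual = M
  indep : ∀ I, M.Indep I → ∀ k, k % 2 = c → ∃ B ∈ 𝓑, secK e k I ⊆ B
  clos : ∀ S k i w, k % 2 = c → (i = k - 1 ∨ i = k) → e (i, w) ∈ M.closure S → e (i, w) ∉ S →
    Sp 𝓑 (secK e k S)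

variable {𝓑 : Set (Set (Om × Bool))}

lemma exists_nice (h : UnifFam 𝓑) (c : ℤ) : ∃ M, Nice e 𝓑 c M := by
  refine ⟨partM (phi e c) h, rfl, partM_dual _ h, ?_, ?_⟩
  · intro I hI k hk
    have := hI ((k - c) / 2)
    have ek : 2 * ((k - c) / 2) + c = k := by omega
    have es : sec (phi e c) ((k - c) / 2) I = secK e k I := by
      ext p
      simp only [sec, secK, phi_apply, ek]
    rwa [es] at this
  · intro S k i w hk hi h1 h2
    obtain ⟨b, rfl⟩ := edge_surj hi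
    have ek : 2 * ((k - c) / 2) + c = k := by omega
    have es : sec (phi e c) ((k - c) / 2) S = secK e k S := by
      ext p
      simp only [sec, secK, phi_apply, ek]
    have ep : phi e c ((k - c) / 2, (w, b)) = e (edge k b, w) := by
      simp only [phi_apply, ek]
    have := partM_closure (phi e c) h S ((k - c) / 2) (w, b) (by rwa [ep]) (by rwa [ep])
    rwa [es] at this

def Ray (U : Ultrafilter Om) (𝓑 : Set (Set (Om × Bool))) : Prop :=
  ∀ K : ℕ → Set (Om × Bool), (∀ n, Disjoint (out (K n)) (inn (K (n + 1)))) →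
    (∀ n, (out (K n)).Nonempty → ∃ B ∈ 𝓑, B ⊆ K (n + 1)) →
    (∃ B ∈ 𝓑, B ⊆ K 0) → inn (K 0) ∈ U

lemma wave_aux {U : Ultrafilter Om} (hR : Ray U 𝓑) (T : ℤ → Set ℕ)
    (hD : ∀ i w, e (i, w) ∈ T i → e (i, w) ∉ T (i + 1))
    (hA : ∀ i w, e (i, w) ∈ T i → Sp 𝓑 (secK e (i + 1) (T (i + 1))))
    (hB : ∀ i w, e (i, w) ∈ T (i + 1) → Sp 𝓑 (secK e i (T i))) : ¬ Sp 𝓑 (secK e 0 (T 0)) := by
  intro h0
  have p1 : ∀ k : ℤ, 1 ≤ k → edge k true = k := fun k hk => by simp [edge, hk]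
  have p2 : ∀ k : ℤ, 1 ≤ k → edge k false = k - 1 := fun k hk => by simp [edge, hk]
  have p3 : ∀ k : ℤ, ¬ 1 ≤ k → edge k true = k - 1 := fun k hk => by simp [edge, hk]
  have p4 : ∀ k : ℤ, ¬ 1 ≤ k → edge k false = k := fun k hk => by simp [edge, hk]
  have l := hR (fun n => secK e (-(n : ℤ)) (T (-(n : ℤ)))) (by
      intro n
      rw [Set.disjoint_left]
      intro w h1 h2
      simp only [out, inn, secK, mem_ofPred_eq] at h1 h2
      rw [p3 _ (by omega)] at h1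
      rw [p4 _ (by omega)] at h2
      have a : -((n + 1 : ℕ) : ℤ) = -(n : ℤ) - 1 := by push_cast; ring
      rw [a] at h2
      apply hD _ _ h2
      rwa [sub_add_cancel]) (by
      rintro n ⟨w, h1⟩
      simp only [out, secK, mem_ofPred_eq] at h1
      rw [p3 _ (by omega)] at h1
      have a : -((n + 1 : ℕ) : ℤ) = -(n : ℤ) - 1 := by push_cast; ring
      simp only [a]
      apply hB _ w
      rwa [sub_add_cancel]) (by simpa [Sp] using h0)
  simp only [Nat.cast_zero, neg_zero, inn, secK, mem_ofPred_eq, p4 0 (by omega)] at l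
  obtain ⟨w0, hw0⟩ := Ultrafilter.nonempty_of_mem l
  have r := hR (fun n => secK e ((n : ℤ) + 1) (T ((n : ℤ) + 1))) (by
      intro n
      rw [Set.disjoint_left]
      intro w h1 h2
      simp only [out, inn, secK, mem_ofPred_eq] at h1 h2
      rw [p1 _ (by omega)] at h1
      rw [p2 _ (by omega)] at h2
      push_cast at h2
      rw [add_sub_cancel_right] at h2
      exact hD _ _ h1 h2) (by
      rintro n ⟨w, h1⟩
      simp only [out, secK, mem_ofPred_eq] at h1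
      rw [p1 _ (by omega)] at h1
      push_cast
      exact hA _ w h1) (by simpa [Sp] using hA 0 w0 hw0)
  simp only [Nat.cast_zero, zero_add, inn, secK, mem_ofPred_eq, p2 1 le_rfl, sub_self] at r
  obtain ⟨w, h1, h2⟩ := Ultrafilter.nonempty_of_mem (Filter.inter_mem l r)
  exact hD 0 w h1 (by simpa using h2)

lemma wave {U : Ultrafilter Om} (hR : Ray U 𝓑) (S0 S1 : Set ℕ) (hd : Disjoint S0 S1)
    (h0 : ∀ k i w, k % 2 = 1 → (i = k - 1 ∨ i = k) → e (i, w) ∈ S0 → Sp 𝓑 (secK e k S1))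
    (h1 : ∀ k i w, k % 2 = 0 → (i = k - 1 ∨ i = k) → e (i, w) ∈ S1 → Sp 𝓑 (secK e k S0)) :
    ¬ Sp 𝓑 (secK e 0 S0) := by
  have := wave_aux e hR (fun k => if k % 2 = 0 then S0 else S1) ?_ ?_ ?_
  · simpa using this
  · intro i w
    by_cases hi : i % 2 = 0
    · simp only [if_pos hi, if_neg (show ¬ (i + 1) % 2 = 0 by omega)]
      exact fun h => Set.disjoint_left.1 hd h
    · simp only [if_neg hi, if_pos (show (i + 1) % 2 = 0 by omega)]
      exact fun h => Set.disjoint_right.1 hd h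
  · intro i w
    by_cases hi : i % 2 = 0
    · simp only [if_pos hi, if_neg (show ¬ (i + 1) % 2 = 0 by omega)]
      exact h0 _ _ _ (by omega) (by omega)
    · simp only [if_neg hi, if_pos (show (i + 1) % 2 = 0 by omega)]
      exact h1 _ _ _ (by omega) (by omega)
  · intro i w
    by_cases hi : i % 2 = 0
    · simp only [if_pos hi, if_neg (show ¬ (i + 1) % 2 = 0 by omega)]
      exact h1 _ _ _ (by omega) (by omega)
    · simp only [if_neg hi, if_pos (show (i + 1) % 2 = 0 by omega)]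
      exact h0 _ _ _ (by omega) (by omega)

lemma wave_pack {U : Ultrafilter Om} (hR : Ray U 𝓑) {M N : Matroid ℕ} (hM : Nice e 𝓑 0 M)
    (hN : Nice e 𝓑 1 N) {P S0 S1 : Set ℕ} (hd : Disjoint S0 S1) (s0 : S0 ⊆ P) (s1 : S1 ⊆ P)
    (c0 : P ⊆ M.closure S0) (c1 : P ⊆ N.closure S1) : ¬ Sp 𝓑 (secK e 0 P) := by
  have hw := wave e hR S0 S1 hd
    (fun k i w hk hi h => hN.clos S1 k i w hk hi (c1 (s0 h)) (Set.disjoint_left.1 hd h))
    (fun k i w hk hi h => hM.clos S0 k i w hk hi (c0 (s1 h)) (Set.disjoint_right.1 hd h))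
  rintro ⟨B, hB, hs⟩
  refine hw ⟨B, hB, hs.trans ?_⟩
  intro p hp
  by_contra hc
  exact hw (hM.clos S0 0 _ p.1 (by norm_num) (edge_cases 0 p.2) (c0 hp) hc)

lemma cover_closure {M : Matroid ℕ} (hE : M.E = univ) (hd : M.dual = M) {C I : Set ℕ}
    (h : (contractOnto M C).Indep I) : C ⊆ M.closure (C \ I) := by
  unfold contractOnto at h
  rw [hd] at h
  have h1 := (Matroid.Coindep.compl_spanning (M := M.restrict C) h).closure_eq
  rw [Matroid.restrict_ground_eq,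
    Matroid.restrict_closure_eq M sdiff_subset (by rw [hE]; exact subset_univ _)] at h1
  exact h1.symm.subset.trans inter_subset_left

lemma no_pc {U : Ultrafilter Om} (hu : UnifFam 𝓑) (hR : Ray U 𝓑) {M N : Matroid ℕ}
    (hM : Nice e 𝓑 0 M) (hN : Nice e 𝓑 1 N) :
    ¬ HasPackingCoveringPartition univ ![M, N] := by
  rintro ⟨P, C, S, I, h1, h2, h3, h4, h5, h6, h7, h8⟩
  have a0 := h6 0
  have a1 := h6 1
  simp only [Matrix.cons_val_zero, Matrix.cons_val_one] at a0 a1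
  rw [Matroid.restrict_closure_eq M (h3 0) (by rw [hM.ground]; exact subset_univ _)] at a0
  rw [Matroid.restrict_closure_eq N (h3 1) (by rw [hN.ground]; exact subset_univ _)] at a1
  have w1 := wave_pack e hR hM hN (h5 0 1 (by decide)) (h3 0) (h3 1)
    (a0.symm.subset.trans inter_subset_left) (a1.symm.subset.trans inter_subset_left)
  have w2 := wave_pack e hR hM hN (P := C) (S0 := C \ I 0) (S1 := C \ I 1) (by
      rw [Set.disjoint_left]
      rintro x ⟨x1, x2⟩ ⟨-, x3⟩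
      rw [← h8] at x1
      obtain ⟨i, hi⟩ := mem_iUnion.1 x1
      fin_cases i
      · exact x2 hi
      · exact x3 hi) sdiff_subset sdiff_subset
    (cover_closure hM.ground hM.dual (h7 0)) (cover_closure hN.ground hN.dual (h7 1))
  obtain ⟨B, hB, c⟩ := hu.intv (secK e 0 P) (secK e 0 P) subset_rfl
  have : secK e 0 P ⊆ B := by
    rcases c with c | c | c
    · exact absurd ⟨B, hB, c⟩ w1
    · exact c
    · exact c.1
  refine w2 ⟨Bᶜ, hu.compl B hB, fun p hp => ?_⟩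
  have hp' : e (edge 0 p.2, p.1) ∈ P ∪ C := by rw [h1]; exact mem_univ _
  rcases hp' with h | h
  · exact absurd (this h) hp
  · exact h

def endp (c i : ℤ) : ℤ := if i % 2 = c then i else i + 1

lemma endp_eq {c k i : ℤ} (_hc : c = 0 ∨ c = 1) (hk : k % 2 = c) (hi : i = k - 1 ∨ i = k) :
    endp c i = k := by
  unfold endp
  split_ifs <;> omega

lemma endp_spec {c : ℤ} (hc : c = 0 ∨ c = 1) (i : ℤ) :
    endp c i % 2 = c ∧ (i = endp c i - 1 ∨ i = endp c i) := by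
  unfold endp
  split_ifs <;> omega

def Tight (𝓑 : Set (Set (Om × Bool))) (c : ℤ) (J : Set ℕ) : Set ℕ :=
  {x | Sp 𝓑 (secK e (endp c (e.symm x).1) J)}

lemma tight_mem (hu : UnifFam 𝓑) {c : ℤ} (hc : c = 0 ∨ c = 1) {M : Matroid ℕ}
    (hM : Nice e 𝓑 c M) {J JA : Set ℕ} (hJ : M.Indep J) (hs : JA ⊆ J) :
    J ∩ Tight e 𝓑 c JA ⊆ JA := by
  rintro x ⟨h1, B, hB, h2⟩
  obtain ⟨⟨i, w⟩, rfl⟩ := e.surjective x
  simp only [Equiv.symm_apply_apply] at h2
  obtain ⟨B', hB', h3⟩ := hM.indep J hJ _ (endp_spec hc i).1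
  have h4 : secK e (endp c i) JA ⊆ secK e (endp c i) J := fun p hp => hs hp
  have := hu.anti B hB B' hB' (h2.trans (h4.trans h3))
  subst this
  obtain ⟨b, hb⟩ := edge_surj (endp_spec hc i).2
  have h5 : (w, b) ∈ secK e (endp c i) J := by
    simp only [secK, mem_ofPred_eq, hb]
    exact h1
  have h6 := h2 (h3 h5)
  simpa only [secK, mem_ofPred_eq, hb] using h6

lemma tight_clos {c : ℤ} (hc : c = 0 ∨ c = 1) {M : Matroid ℕ}
    (hM : Nice e 𝓑 c M) (JA : Set ℕ) : M.closure JA \ JA ⊆ Tight e 𝓑 c JA := by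
  rintro x ⟨h1, h2⟩
  obtain ⟨⟨i, w⟩, rfl⟩ := e.surjective x
  simp only [Tight, mem_ofPred_eq, Equiv.symm_apply_apply]
  exact hM.clos JA _ i w (endp_spec hc i).1 (endp_spec hc i).2 h1 h2

lemma tight_own {c : ℤ} (hc : c = 0 ∨ c = 1) {J JA : Set ℕ} (hs : JA ⊆ J) {k : ℤ}
    (hk : k % 2 = c) (h : Sp 𝓑 (secK e k JA)) : Sp 𝓑 (secK e k (J ∩ Tight e 𝓑 c JA)) := by
  obtain ⟨B, hB, h2⟩ := id h
  refine ⟨B, hB, h2.trans (fun p hp => ⟨hs hp, ?_⟩)⟩
  simp only [Tight, mem_ofPred_eq, Equiv.symm_apply_apply]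
  rwa [endp_eq hc hk (edge_cases k p.2)]

lemma tight_other (hu : UnifFam 𝓑) {c : ℤ} (hc : c = 0 ∨ c = 1) {M : Matroid ℕ}
    (hM : Nice e 𝓑 c M) {J JA T : Set ℕ} (hJ : M.Indep J)
    (hT : Jᶜ ⊆ T ∪ Tight e 𝓑 c JA) {k : ℤ} (hk : k % 2 = c) (h : ¬ Sp 𝓑 (secK e k JA)) :
    Sp 𝓑 (secK e k (Jᶜ ∩ T)) := by
  obtain ⟨B, hB, h2⟩ := hM.indep J hJ k hk
  refine ⟨Bᶜ, hu.compl B hB, fun p hp => ?_⟩
  have h3 : e (edge k p.2, p.1) ∈ Jᶜ := fun h => hp (h2 h)
  refine ⟨h3, ?_⟩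
  rcases hT h3 with h4 | h4
  · exact h4
  · simp only [Tight, mem_ofPred_eq, Equiv.symm_apply_apply] at h4
    rw [endp_eq hc hk (edge_cases k p.2)] at h4
    exact absurd h4 h

lemma tight_at {c : ℤ} (hc : c = 0 ∨ c = 1) {JA : Set ℕ} {k i : ℤ} {w : Om} (hk : k % 2 = c)
    (hi : i = k - 1 ∨ i = k) : e (i, w) ∈ Tight e 𝓑 c JA ↔ Sp 𝓑 (secK e k JA) := by
  simp only [Tight, mem_ofPred_eq, Equiv.symm_apply_apply]
  rw [endp_eq hc hk hi]

lemma no_int {U : Ultrafilter Om} (hu : UnifFam 𝓑) (hR : Ray U 𝓑) {M N : Matroid ℕ}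
    (hM : Nice e 𝓑 0 M) (hN : Nice e 𝓑 1 N) : ¬ SatisfiesIntersection univ M N := by
  rintro ⟨J, JM, JN, h1, h2, h3, h4, h5⟩
  have c0 : (0 : ℤ) = 0 ∨ (0 : ℤ) = 1 := Or.inl rfl
  have c1 : (1 : ℤ) = 0 ∨ (1 : ℤ) = 1 := Or.inr rfl
  have sM : JM ⊆ J := h3 ▸ subset_union_left
  have sN : JN ⊆ J := h3 ▸ subset_union_right
  have cov : Jᶜ ⊆ Tight e 𝓑 0 JM ∪ Tight e 𝓑 1 JN := by
    intro x hx
    have : x ∈ M.closure JM ∪ N.closure JN := by rw [h5]; exact mem_univ _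
    rcases this with h | h
    · exact Or.inl (tight_clos e c0 hM JM ⟨h, fun h' => hx (sM h')⟩)
    · exact Or.inr (tight_clos e c1 hN JN ⟨h, fun h' => hx (sN h')⟩)
  have excl : ∀ x ∈ J, x ∈ Tight e 𝓑 0 JM → x ∈ Tight e 𝓑 1 JN → False := by
    intro x hx a b
    exact Set.disjoint_left.1 h4 (tight_mem e hu c0 hM h1 sM ⟨hx, a⟩)
      (tight_mem e hu c1 hN h2 sN ⟨hx, b⟩)
  have dj : ∀ A C : Set ℕ, Disjoint (J ∩ A) (Jᶜ ∩ C) :=
    fun A C => disjoint_compl_right.mono inter_subset_left inter_subset_left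
  have w1 := wave e hR (J ∩ Tight e 𝓑 0 JM) (Jᶜ ∩ Tight e 𝓑 0 JM) (dj _ _)
    (fun k i w hk hi h => tight_other e hu c1 hN h2 cov hk
      (fun h' => excl _ h.1 h.2 ((tight_at e c1 hk hi).2 h')))
    (fun k i w hk hi h => tight_own e c0 sM hk ((tight_at e c0 hk hi).1 h.2))
  have w2 := wave e hR (Jᶜ ∩ Tight e 𝓑 1 JN) (J ∩ Tight e 𝓑 1 JN) (dj _ _).symm
    (fun k i w hk hi h => tight_own e c1 sN hk ((tight_at e c1 hk hi).1 h.2))
    (fun k i w hk hi h => tight_other e hu c0 hM h1 (by rwa [union_comm]) hk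
      (fun h' => excl _ h.1 ((tight_at e c0 hk hi).2 h') h.2))
  exact w2 (tight_other e hu c0 hM h1 (by rwa [union_comm]) (by norm_num)
    (fun h => w1 (tight_own e c0 sM (by norm_num) h)))

theorem counterexample : ∃ M N : Matroid ℕ, M.E = univ ∧ N.E = univ ∧ M.dual = M ∧ N.dual = N ∧
    ¬ HasPackingCoveringPartition univ ![M, N] ∧ ¬ SatisfiesIntersection univ M N := by
  obtain ⟨U, 𝓑, hu, hR⟩ := exists_gadget
  have : Infinite (ℤ × Om) := Infinite.of_injective (fun i : ℤ => (i, (⟨0, fun _ => true⟩ : Om)))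
    (fun a b h => congrArg Prod.fst h)
  obtain ⟨d⟩ := nonempty_denumerable (ℤ × Om)
  let e : ℤ × Om ≃ ℕ := Denumerable.eqv _
  obtain ⟨M, hM⟩ := exists_nice e hu 0
  obtain ⟨N, hN⟩ := exists_nice e hu 1
  exact ⟨M, N, hM.ground, hN.ground, hM.dual, hN.dual, no_pc e hu hR hM hN, no_int e hu hR hM hN⟩

end Vale.Agent.P068
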