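import Vale.Agent.P068.Unif

/-! Direct sums of copies of a self dual uniform matroid. -/

namespace Vale.Agent.P068
open Set

variable {V G E : Type} (φ : V × G ≃ E) {𝓑 : Set (Set G)}

def sec (v : V) (X : Set E) : Set G := {g | φ (v, g) ∈ X}

def glue (f : V → Set G) : Set E := {e | (φ.symm e).2 ∈ f (φ.symm e).1}

lemma sec_glue (f : V → Set G) (v : V) : sec φ v (glue φ f) = f v := by
  ext g; simp [sec, glue]

lemma subset_of_sec {X Y : Set E} (h : ∀ v, sec φ v X ⊆ sec φ v Y) : X ⊆ Y := by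
  intro e he
  obtain ⟨⟨v, g⟩, rfl⟩ := φ.surjective e
  exact h v he

lemma sec_mono {X Y : Set E} (h : X ⊆ Y) (v : V) : sec φ v X ⊆ sec φ v Y := fun _ hg => h hg

lemma indep_sec (I : Set E) :
    (∃ B, (∀ v, sec φ v B ∈ 𝓑) ∧ I ⊆ B) ↔ ∀ v, ∃ B ∈ 𝓑, sec φ v I ⊆ B := by
  constructor
  · rintro ⟨B, h1, h2⟩ v
    exact ⟨_, h1 v, sec_mono φ h2 v⟩
  · intro h
    choose f h1 h2 using h
    refine ⟨glue φ f, fun v => by rw [sec_glue]; exact h1 v, subset_of_sec φ (fun v => ?_)⟩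
    rw [sec_glue]
    exact h2 v

lemma sec_insert_same (v : V) (g : G) (X : Set E) :
    sec φ v (insert (φ (v, g)) X) = insert g (sec φ v X) := by
  ext x; simp [sec]

lemma sec_insert_ne {v w : V} (h : w ≠ v) (g : G) (X : Set E) :
    sec φ w (insert (φ (v, g)) X) = sec φ w X := by
  ext x; simp [sec, h]

lemma sec_diff_same (v : V) (g : G) (X : Set E) :
    sec φ v (X \ {φ (v, g)}) = sec φ v X \ {g} := by
  ext x; simp [sec]

lemma sec_diff_ne {v w : V} (h : w ≠ v) (g : G) (X : Set E) :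
    sec φ w (X \ {φ (v, g)}) = sec φ w X := by
  ext x; simp [sec, h]

lemma UnifFam.maxi (h : UnifFam 𝓑) {I X : Set G} (hI : ∃ B ∈ 𝓑, I ⊆ B) (hs : I ⊆ X) :
    ∃ J, I ⊆ J ∧ J ⊆ X ∧ (∃ B ∈ 𝓑, J ⊆ B) ∧
      ∀ K, (∃ B ∈ 𝓑, K ⊆ B) → J ⊆ K → K ⊆ X → K ⊆ J := by
  obtain ⟨B, hB, c | c | c⟩ := h.intv I X hs
  · refine ⟨I, subset_rfl, hs, hI, ?_⟩
    rintro K ⟨B', hB', hK⟩ h1 -
    have := h.anti B hB B' hB' (c.trans (h1.trans hK))
    subst this
    exact hK.trans c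
  · exact ⟨X, hs, subset_rfl, ⟨B, hB, c⟩, fun K _ _ h2 => h2⟩
  · refine ⟨B, c.1, c.2, ⟨B, hB, subset_rfl⟩, ?_⟩
    rintro K ⟨B', hB', hK⟩ h1 -
    have := h.anti B hB B' hB' (h1.trans hK)
    subst this
    exact hK

def partM (h : UnifFam 𝓑) : Matroid E where
  E := univ
  IsBase B := ∀ v, sec φ v B ∈ 𝓑
  Indep I := ∀ v, ∃ B ∈ 𝓑, sec φ v I ⊆ B
  indep_iff' I := (indep_sec φ I).symm
  exists_isBase := by
    obtain ⟨B, hB, -⟩ := h.intv ∅ ∅ subset_rfl
    exact ⟨glue φ (fun _ => B), fun v => by rw [sec_glue]; exact hB⟩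
  isBase_exchange := by
    intro X Y hX hY a ha
    obtain ⟨⟨v, g⟩, rfl⟩ := φ.surjective a
    obtain ⟨g', h1, h2⟩ : ∃ g', g' ∈ sec φ v Y ∧ g' ∉ sec φ v X := by
      by_contra hc
      push Not at hc
      have := h.anti _ (hY v) _ (hX v) hc
      have hg : g ∈ sec φ v X := ha.1
      rw [← this] at hg
      exact ha.2 hg
    refine ⟨φ (v, g'), ⟨h1, h2⟩, fun w => ?_⟩
    by_cases hw : w = v
    · subst hw
      rw [sec_insert_same, sec_diff_same]
      exact h.exch _ (hX w) g ha.1 g' h2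
    · rw [sec_insert_ne φ hw, sec_diff_ne φ hw]
      exact hX w
  maximality := by
    intro X _ I hI hs
    choose f f1 f2 f3 f4 using fun v => h.maxi (hI v) (sec_mono φ hs v)
    refine ⟨glue φ f, subset_of_sec φ (fun v => by rw [sec_glue]; exact f1 v),
      ⟨fun v => by rw [sec_glue]; exact f3 v,
        subset_of_sec φ (fun v => by rw [sec_glue]; exact f2 v)⟩, ?_⟩
    rintro K ⟨k1, k2⟩ k3
    refine subset_of_sec φ (fun v => ?_)
    rw [sec_glue]
    refine f4 v _ (k1 v) ?_ (sec_mono φ k2 v)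
    have := sec_mono φ k3 v
    rwa [sec_glue] at this
  subset_ground _ _ := subset_univ _

lemma partM_dual (h : UnifFam 𝓑) : (partM φ h).dual = partM φ h := by
  refine Matroid.ext_isBase rfl (fun B _ => ?_)
  rw [Matroid.dual_isBase_iff (subset_univ _)]
  have e : ∀ v, sec φ v ((partM φ h).E \ B) = (sec φ v B)ᶜ := by
    intro v
    ext g
    simp [sec, partM]
  constructor
  · intro hB v
    have := h.compl _ (hB v)
    rwa [e, compl_compl] at this
  · intro hB v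
    rw [e]
    exact h.compl _ (hB v)

lemma partM_closure (h : UnifFam 𝓑) (S : Set E) (v : V) (g : G)
    (h1 : φ (v, g) ∈ (partM φ h).closure S) (h2 : φ (v, g) ∉ S) : ∃ B ∈ 𝓑, B ⊆ sec φ v S := by
  obtain ⟨I, hI⟩ := (partM φ h).exists_isBasis' S
  rw [← hI.closure_eq_closure, hI.indep.mem_closure_iff'] at h1
  obtain ⟨B, hB, hs⟩ := hI.indep v
  by_cases c : B ⊆ sec φ v I
  · exact ⟨B, hB, c.trans (sec_mono φ hI.subset v)⟩
  exfalso
  apply h2
  apply hI.subset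
  apply h1.2
  intro w
  by_cases hw : w = v
  · subst hw
    rw [sec_insert_same]
    by_cases hg : g ∈ B
    · exact ⟨B, hB, insert_subset hg hs⟩
    · obtain ⟨x, x1, x2⟩ := not_subset.1 c
      refine ⟨_, h.exch B hB x x1 g hg, insert_subset_insert ?_⟩
      intro y hy
      exact ⟨hs hy, fun e => x2 (e ▸ hy)⟩
  · rw [sec_insert_ne φ hw]
    exact hI.indep w

end Vale.Agent.P068
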