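import Vale.Agent.P068.Split
import Vale.Agent.P068.Dom

/-! The transfinite construction of the labelled family of representatives. -/

namespace Vale.Agent.P068
open Set Filter

structure Entry (L : Type) where
  A : Set Om
  C : Set Om
  l : L

abbrev Sub (X Y : Set Om) : Prop := omB.Null (X \ Y)

variable {L : Type} [LinearOrder L]

def Good (U : Ultrafilter Om) (F : Set (Entry L)) : Prop :=
  (∀ x ∈ F, x.A ∉ U ∧ x.C ∉ U) ∧
  (∀ x ∈ F, ∀ y ∈ F, Sub x.A y.A → Sub y.C x.C → x = y) ∧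
  (∀ x ∈ F, ∀ y ∈ F, Sub y.A x.C → y.l < x.l)

def Sol (F : Set (Entry L)) (A0 C0 A1 C1 : Set Om) : Prop :=
  ∃ x ∈ F, (Sub x.A A0 ∧ Sub C0 x.C) ∨ (Sub A1 x.A ∧ Sub x.C C1) ∨
    (Sub A0 x.A ∧ Sub x.C C0 ∧ Sub x.A A1 ∧ Sub C1 x.C)

lemma Good.insert {U : Ultrafilter Om} {F : Set (Entry L)} (h : Good U F) (x : Entry L)
    (h1 : x.A ∉ U) (h2 : x.C ∉ U) (h3 : ∀ y ∈ F, Sub x.A y.A → ¬ Sub y.C x.C)
    (h4 : ∀ y ∈ F, Sub y.A x.A → ¬ Sub x.C y.C) (h5 : ∀ y ∈ F, Sub y.A x.C → y.l < x.l)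
    (h6 : ∀ y ∈ F, Sub x.A y.C → x.l < y.l) (h7 : ¬ Sub x.A x.C) : Good U (insert x F) := by
  refine ⟨?_, ?_, ?_⟩
  · rintro y (rfl | hy)
    · exact ⟨h1, h2⟩
    · exact h.1 y hy
  · rintro y (rfl | hy) z (rfl | hz) a b
    · rfl
    · exact absurd b (h3 z hz a)
    · exact absurd b (h4 y hy a)
    · exact h.2.1 y hy z hz a b
  · rintro y (rfl | hy) z (rfl | hz) a
    · exact absurd a h7
    · exact h5 z hz a
    · exact h6 y hy a
    · exact h.2.2 y hy z hz a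

omit [LinearOrder L] in
lemma split_family (U : Ultrafilter Om) {F : Set (Entry L)}
    (hF : Cardinal.mk F < Cardinal.continuum) (A0 C0 A1 C1 : Set Om) :
    ∃ (K : Set (Set Om)) (S1 S2 S3 : Set Om), A0 ∈ K ∧ C0 ∈ K ∧ A1 ∈ K ∧ C1 ∈ K ∧
      (∀ y ∈ F, y.A ∈ K ∧ y.C ∈ K) ∧ S1 ∉ U ∧ S2 ∉ U ∧
      Disjoint S1 S2 ∧ Disjoint S1 S3 ∧ Disjoint S2 S3 ∧
      ∀ P ∈ K, ∀ Q ∈ K, ¬ Sub P Q → ¬ omB.Null ((P \ Q) ∩ S1) ∧ ¬ omB.Null ((P \ Q) ∩ S2) ∧
        ¬ omB.Null ((P \ Q) ∩ S3) := by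
  let K : Set (Set Om) := ({A0, C0, A1, C1} ∪ Entry.A '' F) ∪ Entry.C '' F
  have hK : Cardinal.mk K < Cardinal.continuum := by
    refine lt_of_le_of_lt (Cardinal.mk_union_le _ _)
      (Cardinal.add_lt_of_lt Cardinal.aleph0_le_continuum ?_
        (lt_of_le_of_lt Cardinal.mk_image_le hF))
    refine lt_of_le_of_lt (Cardinal.mk_union_le _ _)
      (Cardinal.add_lt_of_lt Cardinal.aleph0_le_continuum ?_
        (lt_of_le_of_lt Cardinal.mk_image_le hF))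
    exact lt_trans (Set.toFinite _).lt_aleph0 Cardinal.aleph0_lt_continuum
  have hKK : Cardinal.mk (K × K) < Cardinal.continuum := by
    rw [Cardinal.mk_prod, Cardinal.lift_id]
    exact Cardinal.mul_lt_of_lt Cardinal.aleph0_le_continuum hK hK
  obtain ⟨S1, S2, S3, a1, a2, a3, a4, a5, a6⟩ :=
    split_three U hKK (fun p => (p.1 : Set Om) \ (p.2 : Set Om))
  refine ⟨K, S1, S2, S3, by simp [K], by simp [K], by simp [K], by simp [K], ?_, a1, a2, a3, a4,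
    a5, fun P hP Q hQ h => a6 (⟨P, hP⟩, ⟨Q, hQ⟩) h⟩
  intro y hy
  exact ⟨Or.inl (Or.inr (mem_image_of_mem _ hy)), Or.inr (mem_image_of_mem _ hy)⟩

lemma small_union {U : Ultrafilter Om} {X Y : Set Om} (h : X ∉ U) (h' : Y ∉ U) : X ∪ Y ∉ U := by
  rw [Ultrafilter.union_mem_iff]
  tauto

lemma small_mono {U : Ultrafilter Om} {X Y : Set Om} (h : Y ∉ U) (hs : X ⊆ Y) : X ∉ U :=
  fun hX => h (mem_of_superset hX hs)

lemma not_sub {U : Ultrafilter Om} (hU : ∀ W ∈ U, ¬ omB.Null W) {X Y : Set Om} (h : X ∈ U)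
    (h' : Y ∉ U) : ¬ Sub X Y :=
  hU _ (inter_mem h (Ultrafilter.compl_mem_iff_notMem.2 h'))

lemma small_of_sub {U : Ultrafilter Om} (hU : ∀ W ∈ U, ¬ omB.Null W) {X Y : Set Om}
    (h : Sub X Y) (h' : Y ∉ U) : X ∉ U :=
  fun hX => not_sub hU hX h' h

lemma case1 {U : Ultrafilter Om} (hU : ∀ W ∈ U, ¬ omB.Null W) {F : Set (Entry L)}
    (hG : Good U F) (hF : Cardinal.mk F < Cardinal.continuum) (t : L) (ht : ∀ y ∈ F, y.l < t)
    {A0 C0 A1 C1 : Set Om} (s1 : A0 ⊆ A1) (s2 : C1 ⊆ C0) (u1 : A0 ∉ U) (u2 : C1 ∉ U)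
    (u3 : A1 ∈ U) (hn : ∀ y ∈ F, Sub y.A A0 → ¬ Sub C0 y.C) :
    ∃ x : Entry L, x.l = t ∧ Good U (insert x F) ∧ A0 ⊆ x.A ∧ x.A ⊆ A1 ∧ C1 ⊆ x.C ∧ x.C ⊆ C0 := by
  obtain ⟨K, S1, S2, S3, k1, k2, k3, k4, k5, v1, v2, d12, -, -, hs⟩ :=
    split_family U hF A0 C0 A1 C1
  have d := Set.disjoint_left.1 d12
  refine ⟨⟨A0 ∪ (S1 ∩ A1), C1 ∪ (S2 ∩ C0), t⟩, rfl, ?_, subset_union_left,
    union_subset s1 inter_subset_right, subset_union_left, union_subset s2 inter_subset_right⟩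
  apply hG.insert
  · exact small_union u1 (small_mono v1 inter_subset_left)
  · exact small_union u2 (small_mono v2 inter_subset_left)
  · intro y hy h _
    refine (hs _ k3 _ (k5 y hy).1 (not_sub hU u3 (hG.1 y hy).1)).1 (h.mono ?_)
    rintro p ⟨⟨a, b⟩, c⟩
    exact ⟨Or.inr ⟨c, a⟩, b⟩
  · intro y hy h h'
    by_cases e : Sub y.A A0
    · refine (hs _ k2 _ (k5 y hy).2 (hn y hy e)).2.1 (h'.mono ?_)
      rintro p ⟨⟨a, b⟩, c⟩
      exact ⟨Or.inr ⟨c, a⟩, b⟩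
    · refine (hs _ (k5 y hy).1 _ k1 e).2.1 (h.mono ?_)
      rintro p ⟨⟨a, b⟩, c⟩
      refine ⟨a, ?_⟩
      rintro (h | h)
      · exact b h
      · exact d h.1 c
  · intro y hy _
    exact ht y hy
  · intro y hy h
    exfalso
    refine (hs _ k3 _ (k5 y hy).2 (not_sub hU u3 (hG.1 y hy).2)).1 (h.mono ?_)
    rintro p ⟨⟨a, b⟩, c⟩
    exact ⟨Or.inr ⟨c, a⟩, b⟩
  · intro h
    refine (hs _ k3 _ k4 (not_sub hU u3 u2)).1 (h.mono ?_)
    rintro p ⟨⟨a, b⟩, c⟩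
    refine ⟨Or.inr ⟨c, a⟩, ?_⟩
    rintro (h | h)
    · exact b h
    · exact d c h.1

lemma case3 {U : Ultrafilter Om} {F : Set (Entry L)}
    (hG : Good U F) (hF : Cardinal.mk F < Cardinal.continuum)
    {A0 C0 A1 C1 : Set Om} (s1 : A0 ⊆ A1) (s2 : C1 ⊆ C0) (u2 : C1 ∉ U)
    (u3 : A1 ∉ U) (hn : ∀ y ∈ F, Sub y.A A0 → ¬ Sub C0 y.C)
    (hm : ∀ y ∈ F, Sub A1 y.A → ¬ Sub y.C C1) {z : Entry L} (hz : z ∈ F)
    (z1 : Sub z.A A1) (z2 : Sub C1 z.C) :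
    ∃ x : Entry L, x.l = z.l ∧ Good U (insert x F) ∧
      A0 ⊆ x.A ∧ x.A ⊆ A1 ∧ C1 ⊆ x.C ∧ x.C ⊆ C0 := by
  obtain ⟨K, S1, S2, S3, k1, k2, k3, k4, k5, -, v2, d12, d13, d23, hs⟩ :=
    split_family U hF A0 C0 A1 C1
  have d := Set.disjoint_left.1 d12
  have d' := Set.disjoint_left.1 d13
  have d'' := Set.disjoint_left.1 d23
  refine ⟨⟨A0 ∪ (A1 \ S1), C1 ∪ (S2 ∩ C0), z.l⟩, rfl, ?_, subset_union_left,
    union_subset s1 sdiff_subset, subset_union_left, union_subset s2 inter_subset_right⟩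
  apply hG.insert
  · exact small_mono u3 (union_subset s1 sdiff_subset)
  · exact small_union u2 (small_mono v2 inter_subset_left)
  · intro y hy h h'
    by_cases e : Sub A1 y.A
    · refine (hs _ (k5 y hy).2 _ k4 (hm y hy e)).1 (h'.mono ?_)
      rintro p ⟨⟨a, b⟩, c⟩
      refine ⟨a, ?_⟩
      rintro (h | h)
      · exact b h
      · exact d c h.1
    · refine (hs _ k3 _ (k5 y hy).1 e).2.1 (h.mono ?_)
      rintro p ⟨⟨a, b⟩, c⟩
      exact ⟨Or.inr ⟨a, fun h => d h c⟩, b⟩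
  · intro y hy h h'
    by_cases e : Sub y.A A0
    · refine (hs _ k2 _ (k5 y hy).2 (hn y hy e)).2.1 (h'.mono ?_)
      rintro p ⟨⟨a, b⟩, c⟩
      exact ⟨Or.inr ⟨c, a⟩, b⟩
    · refine (hs _ (k5 y hy).1 _ k1 e).1 (h.mono ?_)
      rintro p ⟨⟨a, b⟩, c⟩
      refine ⟨a, ?_⟩
      rintro (h | h)
      · exact b h
      · exact h.2 c
  · intro y hy h
    have e : Sub y.A C1 := by
      by_contra e
      refine (hs _ (k5 y hy).1 _ k4 e).1 (h.mono ?_)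
      rintro p ⟨⟨a, b⟩, c⟩
      refine ⟨a, ?_⟩
      rintro (h | h)
      · exact b h
      · exact d c h.1
    exact hG.2.2 z hz y hy (e.trans_diff z2)
  · intro y hy h
    have e : Sub A1 y.C := by
      by_contra e
      refine (hs _ k3 _ (k5 y hy).2 e).2.1 (h.mono ?_)
      rintro p ⟨⟨a, b⟩, c⟩
      exact ⟨Or.inr ⟨a, fun h => d h c⟩, b⟩
    exact hG.2.2 y hy z hz (z1.trans_diff e)
  · intro h
    have e : Sub A1 C1 := by
      by_contra e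
      refine (hs _ k3 _ k4 e).2.2 (h.mono ?_)
      rintro p ⟨⟨a, b⟩, c⟩
      refine ⟨Or.inr ⟨a, fun h => d' h c⟩, ?_⟩
      rintro (h | h)
      · exact b h
      · exact d'' h.1 c
    exact lt_irrefl _ (hG.2.2 z hz z hz ((z1.trans_diff e).trans_diff z2))

def Solved (U : Ultrafilter Om) (F : Set (Entry L)) (T : Set Om × Set Om × Set Om × Set Om) :
    Prop :=
  T.1 ⊆ T.2.2.1 → T.2.2.2 ⊆ T.2.1 → T.1 ∉ U → T.2.2.2 ∉ U → Sol F T.1 T.2.1 T.2.2.1 T.2.2.2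

lemma extend {U : Ultrafilter Om} (hU : ∀ W ∈ U, ¬ omB.Null W) {F : Set (Entry L)}
    (hG : Good U F) (hF : Cardinal.mk F < Cardinal.continuum) (t : L) (ht : ∀ y ∈ F, y.l < t)
    (T : Set Om × Set Om × Set Om × Set Om) :
    ∃ G : Set (Entry L), G.Subsingleton ∧ Good U (G ∪ F) ∧ (∀ x ∈ G, x.l ≤ t) ∧
      Solved U (G ∪ F) T := by
  obtain ⟨A0, C0, A1, C1⟩ := T
  by_cases h0 : Solved U F (A0, C0, A1, C1)
  · exact ⟨∅, subsingleton_empty, by simpa using hG, by simp, by simpa using h0⟩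
  unfold Solved at h0
  simp only [Classical.not_imp] at h0
  obtain ⟨s1, s2, u1, u2, h0⟩ := h0
  have hn : ∀ y ∈ F, Sub y.A A0 → ¬ Sub C0 y.C := fun y hy a b => h0 ⟨y, hy, Or.inl ⟨a, b⟩⟩
  have hm : ∀ y ∈ F, Sub A1 y.A → ¬ Sub y.C C1 :=
    fun y hy a b => h0 ⟨y, hy, Or.inr (Or.inl ⟨a, b⟩)⟩
  have nd := fun {A C : Set Om} (h : A ⊆ C) => Blocks.null_diff_of_subset (B := omB) h
  by_cases u3 : A1 ∈ U
  · obtain ⟨x, x1, x2, x3, x4, x5, x6⟩ := case1 hU hG hF t ht s1 s2 u1 u2 u3 hn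
    refine ⟨{x}, subsingleton_singleton, x2, by simp [x1], fun _ _ _ _ => ?_⟩
    exact ⟨x, by simp, Or.inr (Or.inr ⟨nd x3, nd x6, nd x4, nd x5⟩)⟩
  · by_cases hz : ∃ z ∈ F, Sub z.A A1 ∧ Sub C1 z.C
    · obtain ⟨z, hz, z1, z2⟩ := hz
      obtain ⟨x, x1, x2, x3, x4, x5, x6⟩ := case3 hG hF s1 s2 u2 u3 hn hm hz z1 z2
      refine ⟨{x}, subsingleton_singleton, x2, by simp [x1, (ht z hz).le], fun _ _ _ _ => ?_⟩
      exact ⟨x, by simp, Or.inr (Or.inr ⟨nd x3, nd x6, nd x4, nd x5⟩)⟩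
    · obtain ⟨x, x1, x2, x3, x4, x5, x6⟩ := case1 hU hG hF t ht (subset_univ A1)
        (subset_refl C1) u3 u2 univ_mem (fun y hy a b => hz ⟨y, hy, a, b⟩)
      refine ⟨{x}, subsingleton_singleton, x2, by simp [x1], fun _ _ _ _ => ?_⟩
      exact ⟨x, by simp, Or.inr (Or.inl ⟨nd x3, nd x6⟩)⟩

omit [LinearOrder L] in
lemma Solved.mono {U : Ultrafilter Om} {F F' : Set (Entry L)}
    {T : Set Om × Set Om × Set Om × Set Om} (h : Solved U F T) (hs : F ⊆ F') : Solved U F' T := by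
  intro a b c d
  obtain ⟨x, hx, h⟩ := h a b c d
  exact ⟨x, hs hx, h⟩

lemma good_of_pairs {U : Ultrafilter Om} {F : Set (Entry L)}
    (h : ∀ x ∈ F, ∀ y ∈ F, ∃ G, Good U G ∧ x ∈ G ∧ y ∈ G) : Good U F := by
  refine ⟨fun x hx => ?_, fun x hx y hy => ?_, fun x hx y hy => ?_⟩
  · obtain ⟨G, g, a, -⟩ := h x hx x hx
    exact g.1 x a
  · obtain ⟨G, g, a, b⟩ := h x hx y hy
    exact g.2.1 x a y b
  · obtain ⟨G, g, a, b⟩ := h x hx y hy
    exact g.2.2 x a y b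

lemma exists_family_aux [WellFoundedLT L] {U : Ultrafilter Om} (hU : ∀ W ∈ U, ¬ omB.Null W)
    (hL : ∀ t : L, Cardinal.mk (Iio t) < Cardinal.continuum)
    (task : L → Set Om × Set Om × Set Om × Set Om) :
    ∃ F : Set (Entry L), Good U F ∧ ∀ t, Solved U F (task t) := by
  classical
  let P : L → Set (Entry L) → Set (Entry L) → Prop := fun t F G =>
    G.Subsingleton ∧ Good U (G ∪ F) ∧ (∀ x ∈ G, x.l ≤ t) ∧ Solved U (G ∪ F) (task t)
  let ext : L → Set (Entry L) → Set (Entry L) := fun t F =>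
    if h : ∃ G, P t F G then h.choose else ∅
  let f : L → Set (Entry L) := (wellFounded_lt (α := L)).fix
    (fun t prev => ext t (⋃ s : Iio t, prev s.1 s.2))
  have hf : ∀ t, f t = ext t (⋃ s : Iio t, f s.1) := fun t => WellFounded.fix_eq _ _ t
  have pair : ∀ s s', s ≤ s' → ∀ x ∈ f s, x ∈ f s' ∪ ⋃ r : Iio s', f r.1 := by
    intro s s' hs x hx
    rcases hs.eq_or_lt with rfl | hlt
    · exact Or.inl hx
    · exact Or.inr (mem_iUnion.2 ⟨⟨s, hlt⟩, hx⟩)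
  have main : ∀ t, P t (⋃ s : Iio t, f s.1) (f t) := by
    intro t
    induction t using WellFoundedLT.induction with
    | ind t ih =>
      have hex : ∃ G, P t (⋃ s : Iio t, f s.1) G := by
        apply extend hU
        · apply good_of_pairs
          intro x hx y hy
          obtain ⟨s, hx⟩ := mem_iUnion.1 hx
          obtain ⟨s', hy⟩ := mem_iUnion.1 hy
          rcases le_total s.1 s'.1 with h | h
          · exact ⟨_, (ih s'.1 s'.2).2.1, pair _ _ h x hx, Or.inl hy⟩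
          · exact ⟨_, (ih s.1 s.2).2.1, Or.inl hx, pair _ _ h y hy⟩
        · refine lt_of_le_of_lt Cardinal.mk_iUnion_le_sum_mk ?_
          refine lt_of_le_of_lt (Cardinal.sum_le_sum _ (fun _ => 1) (fun s => ?_)) ?_
          · exact Cardinal.le_one_iff_subsingleton.2 (ih s.1 s.2).1.coe_sort
          · rw [Cardinal.sum_const', mul_one]
            exact hL t
        · intro y hy
          obtain ⟨s, hy⟩ := mem_iUnion.1 hy
          exact lt_of_le_of_lt ((ih s.1 s.2).2.2.1 y hy) s.2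
      rw [hf t]
      simp only [ext, dif_pos hex]
      exact hex.choose_spec
  refine ⟨⋃ t, f t, ?_, fun t => (main t).2.2.2.mono ?_⟩
  · apply good_of_pairs
    intro x hx y hy
    obtain ⟨s, hx⟩ := mem_iUnion.1 hx
    obtain ⟨s', hy⟩ := mem_iUnion.1 hy
    rcases le_total s s' with h | h
    · exact ⟨_, (main s').2.1, pair _ _ h x hx, Or.inl hy⟩
    · exact ⟨_, (main s).2.1, Or.inl hx, pair _ _ h y hy⟩
  · exact union_subset (subset_iUnion f t) (iUnion_subset (fun s => subset_iUnion f s.1))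

lemma mk_set_om : Cardinal.mk (Set Om) = Cardinal.continuum := by
  have : Infinite Om := Infinite.of_surjective (fun p : Om => p.1)
    (fun j => ⟨⟨j, fun _ => true⟩, rfl⟩)
  rw [Cardinal.mk_set, Cardinal.mk_eq_aleph0 Om, Cardinal.two_power_aleph0]

lemma exists_family {U : Ultrafilter Om} (hU : ∀ W ∈ U, ¬ omB.Null W) :
    ∃ F : Set (Entry Cardinal.continuum.ord.ToType), Good U F ∧ ∀ T, Solved U F T := by
  have hc : Cardinal.mk (Cardinal.continuum.{0}.ord.ToType) =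
      Cardinal.mk (Set Om × Set Om × Set Om × Set Om) := by
    simp only [Cardinal.mk_ord_toType, Cardinal.mk_prod, Cardinal.lift_id, mk_set_om,
      Cardinal.continuum_mul_self]
  obtain ⟨e⟩ := Cardinal.eq.1 hc
  obtain ⟨F, h1, h2⟩ := exists_family_aux hU (fun t => Cardinal.mk_Iio_toType_ord_lt t) e
  refine ⟨F, h1, fun T => ?_⟩
  have := h2 (e.symm T)
  rwa [e.apply_symm_apply] at this

end Vale.Agent.P068
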