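import Vale.Agent.P068.Blocks

/-! A countable block system in which fewer than continuum many positive sets can be split. -/

namespace Vale.Agent.P068
open Set Filter

abbrev Om : Type := Σ j : ℕ, ((Fin j → Bool) → Bool)

noncomputable def omB : Blocks Om where
  blk j := Finset.univ.map (Function.Embedding.sigmaMk (β := fun j : ℕ => ((Fin j → Bool) → Bool)) j)
  β x := x.1
  mem_blk := by
    rintro ⟨i, w⟩ j
    simp only [Finset.mem_map, Finset.mem_univ, true_and, Function.Embedding.sigmaMk_apply]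
    constructor
    · rintro ⟨a, ha⟩
      exact (congrArg Sigma.fst ha).symm
    · rintro rfl
      exact ⟨w, rfl⟩
  tends := by
    intro m
    filter_upwards [eventually_ge_atTop m] with j hj
    simp only [Finset.card_map, Finset.card_univ, Fintype.card_fun, Fintype.card_bool,
      Fintype.card_fin]
    have h1 : j < 2 ^ j := Nat.lt_two_pow_self
    have h2 : 2 ^ j < 2 ^ (2 ^ j) := Nat.lt_two_pow_self
    omega

def res (j : ℕ) (x : ℕ → Bool) : Fin j → Bool := fun i => x i

def side (x : ℕ → Bool) (b : Bool) : Set Om := {p | p.2 (res p.1 x) = b}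

lemma card_fix {P : Type} [Fintype P] [DecidableEq P] (Q : Finset P) (ε : P → Bool) :
    2 ^ Q.card * (Finset.univ.filter (fun w : P → Bool => ∀ p ∈ Q, w p = ε p)).card
      = 2 ^ Fintype.card P := by
  have e : Finset.univ.filter (fun w : P → Bool => ∀ p ∈ Q, w p = ε p) =
      Fintype.piFinset (fun p => if p ∈ Q then {ε p} else Finset.univ) := by
    ext w
    simp only [Finset.mem_filter, Finset.mem_univ, true_and, Fintype.mem_piFinset]
    constructor
    · intro h p
      split_ifs with hp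
      · simp [h p hp]
      · simp
    · intro h p hp
      have := h p
      rw [if_pos hp] at this
      simpa using this
  rw [e, Fintype.card_piFinset]
  have e2 : ∀ p, (if p ∈ Q then ({ε p} : Finset Bool) else Finset.univ).card
      = if p ∈ Q then 1 else 2 := by
    intro p
    split_ifs <;> simp
  simp only [e2]
  rw [Finset.prod_ite]
  simp only [Finset.prod_const_one, one_mul, Finset.prod_const, ← pow_add]
  congr 1
  have := Finset.card_filter_add_card_filter_not (s := (Finset.univ : Finset P)) (fun p => p ∈ Q)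
  simpa using this

lemma atom_bound (T : Finset (ℕ → Bool)) (σ : (ℕ → Bool) → Bool) :
    ∀ᶠ j in atTop, 2 ^ T.card * omB.cnt (⋂ x ∈ T, side x (σ x)) j ≤ (omB.blk j).card := by
  classical
  have hinj : ∀ᶠ j in atTop, ∀ x ∈ T, ∀ y ∈ T, res j x = res j y → x = y := by
    rw [eventually_all_finset]
    intro x _
    rw [eventually_all_finset]
    intro y _
    by_cases h : x = y
    · exact Eventually.of_forall (fun _ _ => h)
    · obtain ⟨i, hi⟩ := Function.ne_iff.1 h
      filter_upwards [eventually_gt_atTop i] with j hj he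
      exact absurd (congrFun he ⟨i, hj⟩) hi
  filter_upwards [hinj] with j hj
  let ε : (Fin j → Bool) → Bool := fun p =>
    if h : ∃ x ∈ T, res j x = p then σ h.choose else true
  have hε : ∀ x ∈ T, ε (res j x) = σ x := by
    intro x hx
    have h : ∃ y ∈ T, res j y = res j x := ⟨x, hx, rfl⟩
    simp only [ε, dif_pos h]
    rw [hj _ h.choose_spec.1 x hx h.choose_spec.2]
  have hc := card_fix (T.image (res j)) ε
  rw [Finset.card_image_of_injOn (fun x hx y hy h => hj x hx y hy h)] at hc
  have e1 : (omB.blk j).card = 2 ^ Fintype.card (Fin j → Bool) := by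
    simp [omB]
  rw [e1, ← hc]
  apply Nat.mul_le_mul_left
  unfold Blocks.cnt
  simp only [omB]
  rw [Finset.filter_map, Finset.card_map]
  apply Finset.card_le_card
  intro w hw
  simp only [Finset.mem_filter, Finset.mem_univ, true_and, Function.comp, mem_iInter,
    Function.Embedding.sigmaMk_apply, side, mem_ofPred_eq] at hw ⊢
  intro p hp
  obtain ⟨x, hx, rfl⟩ := Finset.mem_image.1 hp
  rw [hε x hx]
  exact hw x hx

lemma null_biUnion {E ι : Type} {B : Blocks E} (T : Finset ι) (f : ι → Set E)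
    (h : ∀ i ∈ T, B.Null (f i)) : B.Null (⋃ i ∈ T, f i) := by
  classical
  induction T using Finset.induction_on with
  | empty => simpa using Blocks.null_empty
  | insert a T _ ih =>
    rw [Finset.set_biUnion_insert]
    exact (h a (by simp)).union (ih (fun i hi => h i (by simp [hi])))

lemma bad_finite {Y : Set Om} (hY : ¬ omB.Null Y) :
    {x : ℕ → Bool | ∃ b, omB.Null (Y ∩ side x b)}.Finite := by
  classical
  by_contra hinf
  apply hY
  intro t
  obtain ⟨T, hT, hcard⟩ := Set.Infinite.exists_subset_card_eq hinf (2 * t)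
  have : ∀ x : ℕ → Bool, ∃ b, x ∈ T → omB.Null (Y ∩ side x b) := by
    intro x
    by_cases hx : x ∈ T
    · obtain ⟨b, hb⟩ := hT hx
      exact ⟨b, fun _ => hb⟩
    · exact ⟨true, fun h => absurd h hx⟩
  choose σ hσ using this
  have hU := null_biUnion T (fun x => Y ∩ side x (σ x)) hσ
  filter_upwards [hU (2 * t), atom_bound T (fun x => !σ x)] with j h1 h2
  have hsub : Y ⊆ (⋃ x ∈ T, Y ∩ side x (σ x)) ∪ ⋂ x ∈ T, side x (!σ x) := by
    intro p hp
    by_cases h : ∃ x ∈ T, p ∈ side x (σ x)
    · obtain ⟨x, hx, h⟩ := h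
      left
      simp only [mem_iUnion]
      exact ⟨x, hx, hp, h⟩
    · right
      push Not at h
      simp only [mem_iInter]
      intro x hx
      have := h x hx
      simp only [side, mem_ofPred_eq] at this ⊢
      cases hs : σ x <;> simp_all
  have h3 := le_trans (omB.cnt_mono hsub j) (omB.cnt_union_le _ _ j)
  have h4 : 2 * t ≤ 2 ^ T.card := by
    rw [hcard]
    exact Nat.lt_two_pow_self.le
  have h5 := Nat.mul_le_mul_right (omB.cnt (⋂ x ∈ T, side x (!σ x)) j) h4
  nlinarith

lemma split_two {ι : Type} (hι : Cardinal.mk ι < Cardinal.continuum) (Y : ι → Set Om) :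
    ∃ S : Set Om, ∀ i, ¬ omB.Null (Y i) → ¬ omB.Null (Y i ∩ S) ∧ ¬ omB.Null (Y i ∩ Sᶜ) := by
  classical
  let bad : ι → Set (ℕ → Bool) := fun i =>
    if omB.Null (Y i) then ∅ else {x : ℕ → Bool | ∃ b, omB.Null (Y i ∩ side x b)}
  have hfin : ∀ i, (bad i).Finite := by
    intro i
    simp only [bad]
    split_ifs with h
    · exact finite_empty
    · exact bad_finite h
  have hlt : Cardinal.mk (⋃ i, bad i) < Cardinal.continuum := by
    refine lt_of_le_of_lt Cardinal.mk_iUnion_le_sum_mk ?_
    refine lt_of_le_of_lt (Cardinal.sum_le_sum _ (fun _ => Cardinal.aleph0) (fun i => ?_)) ?_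
    · exact (hfin i).lt_aleph0.le
    · rw [Cardinal.sum_const']
      exact Cardinal.mul_lt_of_lt Cardinal.aleph0_le_continuum hι Cardinal.aleph0_lt_continuum
  obtain ⟨x, hx⟩ : ∃ x, x ∉ ⋃ i, bad i := by
    by_contra hc
    push Not at hc
    rw [eq_univ_iff_forall.2 hc, Cardinal.mk_univ] at hlt
    simp at hlt
  refine ⟨side x true, fun i hi => ?_⟩
  simp only [mem_iUnion, not_exists] at hx
  have := hx i
  simp only [bad, if_neg hi, mem_ofPred_eq, not_exists] at this
  refine ⟨this true, ?_⟩
  have e : (side x true)ᶜ = side x false := by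
    ext p
    simp [side]
  rw [e]
  exact this false

noncomputable def nullFilter : Filter Om where
  sets := {W | omB.Null Wᶜ}
  univ_sets := by simpa using Blocks.null_empty
  sets_of_superset := fun h hs => Blocks.Null.mono h (compl_subset_compl.2 hs)
  inter_sets := fun h h' => by
    simp only [mem_ofPred_eq, compl_inter] at h h' ⊢
    exact h.union h'

lemma exists_ultra : ∃ U : Ultrafilter Om, ∀ W ∈ U, ¬ omB.Null W := by
  have : nullFilter.NeBot := by
    rw [← forall_mem_nonempty_iff_neBot]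
    intro s hs
    by_contra hc
    rw [not_nonempty_iff_eq_empty] at hc
    subst hc
    have : omB.Null (∅ : Set Om)ᶜ := hs
    rw [compl_empty] at this
    exact Blocks.not_null_univ this
  refine ⟨Ultrafilter.of nullFilter, fun W hW hn => ?_⟩
  have : Wᶜ ∈ nullFilter := by
    show omB.Null Wᶜᶜ
    rwa [compl_compl]
  exact (Ultrafilter.compl_mem_iff_notMem.1 (Ultrafilter.of_le _ this)) hW

lemma split_three (U : Ultrafilter Om) {ι : Type} (hι : Cardinal.mk ι < Cardinal.continuum)
    (Y : ι → Set Om) :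
    ∃ S1 S2 S3 : Set Om, S1 ∉ U ∧ S2 ∉ U ∧ Disjoint S1 S2 ∧ Disjoint S1 S3 ∧ Disjoint S2 S3 ∧
      ∀ i, ¬ omB.Null (Y i) →
        ¬ omB.Null (Y i ∩ S1) ∧ ¬ omB.Null (Y i ∩ S2) ∧ ¬ omB.Null (Y i ∩ S3) := by
  obtain ⟨S, hS⟩ := split_two hι Y
  obtain ⟨S', hS'⟩ := split_two hι (fun i => Y i ∩ Sᶜ)
  have d12 : Disjoint S (Sᶜ ∩ S') := disjoint_compl_right.mono_right inter_subset_left
  have d13 : Disjoint S (Sᶜ ∩ S'ᶜ) := disjoint_compl_right.mono_right inter_subset_left
  have d23 : Disjoint (Sᶜ ∩ S') (Sᶜ ∩ S'ᶜ) :=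
    disjoint_compl_right.mono inter_subset_right inter_subset_right
  have h : ∀ i, ¬ omB.Null (Y i) → ¬ omB.Null (Y i ∩ S) ∧ ¬ omB.Null (Y i ∩ (Sᶜ ∩ S')) ∧
      ¬ omB.Null (Y i ∩ (Sᶜ ∩ S'ᶜ)) := by
    intro i hi
    have a := hS i hi
    have b := hS' i a.2
    simp only [inter_assoc] at b
    exact ⟨a.1, b.1, b.2⟩
  have nd : ∀ A C : Set Om, Disjoint A C → A ∈ U → C ∉ U := by
    intro A C hd hA hC
    have := inter_mem hA hC
    rw [hd.inter_eq] at this
    exact U.empty_notMem this
  by_cases h1 : S ∈ U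
  · exact ⟨_, _, S, nd _ _ d12 h1, nd _ _ d13 h1, d23, d12.symm, d13.symm,
      fun i hi => ⟨(h i hi).2.1, (h i hi).2.2, (h i hi).1⟩⟩
  · by_cases h2 : (Sᶜ ∩ S') ∈ U
    · exact ⟨S, _, _, h1, nd _ _ d23 h2, d13, d12, d23.symm,
        fun i hi => ⟨(h i hi).1, (h i hi).2.2, (h i hi).2.1⟩⟩
    · exact ⟨S, _, _, h1, h2, d12, d13, d23, h⟩

end Vale.Agent.P068
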