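import Vale.Agent.P068.Rec

/-! The self dual uniform matroid on two copies of the block system. -/

namespace Vale.Agent.P068
open Set Filter

structure UnifFam {G : Type} (𝓑 : Set (Set G)) : Prop where
  anti : ∀ B ∈ 𝓑, ∀ B' ∈ 𝓑, B ⊆ B' → B = B'
  exch : ∀ B ∈ 𝓑, ∀ x ∈ B, ∀ y, y ∉ B → insert y (B \ {x}) ∈ 𝓑
  intv : ∀ I X : Set G, I ⊆ X → ∃ B ∈ 𝓑, B ⊆ I ∨ X ⊆ B ∨ (I ⊆ B ∧ B ⊆ X)
  compl : ∀ B ∈ 𝓑, Bᶜ ∈ 𝓑

def inn (W : Set (Om × Bool)) : Set Om := {w | (w, false) ∈ W}

def out (W : Set (Om × Bool)) : Set Om := {w | (w, true) ∈ W}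

noncomputable def omP : Blocks (Om × Bool) where
  blk j := omB.blk j ×ˢ Finset.univ
  β p := omB.β p.1
  mem_blk := by
    intro p j
    simp [omB.mem_blk]
  tends := by
    intro m
    filter_upwards [omB.tends m] with j hj
    simp only [Finset.card_product, Finset.card_univ, Fintype.card_bool]
    omega

lemma cnt_omP (W : Set (Om × Bool)) (j : ℕ) :
    omP.cnt W j = omB.cnt (inn W) j + omB.cnt (out W) j := by
  classical
  unfold Blocks.cnt
  simp only [omP, Finset.card_filter]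
  rw [Finset.sum_product_right, Fintype.sum_bool, add_comm]
  rfl

lemma null_omP (W : Set (Om × Bool)) : omP.Null W ↔ omB.Null (inn W) ∧ omB.Null (out W) := by
  have hc : ∀ j, (omP.blk j).card = 2 * (omB.blk j).card := by
    intro j
    simp only [omP, Finset.card_product, Finset.card_univ, Fintype.card_bool]
    omega
  constructor
  · intro h
    constructor <;> intro t <;> filter_upwards [h (2 * t)] with j hj <;>
      rw [cnt_omP, hc] at hj <;> nlinarith
  · rintro ⟨h1, h2⟩ t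
    filter_upwards [h1 t, h2 t] with j a b
    rw [cnt_omP, hc]
    nlinarith

variable {L : Type}

def rep (x : Entry L) : Set (Om × Bool) := {p | if p.2 then p.1 ∉ x.C else p.1 ∈ x.A}

lemma inn_rep (x : Entry L) : inn (rep x) = x.A := by
  ext w; simp [inn, rep]

lemma out_rep (x : Entry L) : out (rep x) = x.Cᶜ := by
  ext w; simp [out, rep]

lemma inn_diff (W W' : Set (Om × Bool)) : inn (W \ W') = inn W \ inn W' := rfl
lemma out_diff (W W' : Set (Om × Bool)) : out (W \ W') = out W \ out W' := rfl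
lemma inn_compl (W : Set (Om × Bool)) : inn Wᶜ = (inn W)ᶜ := rfl
lemma out_compl (W : Set (Om × Bool)) : out Wᶜ = (out W)ᶜ := rfl
lemma inn_mono {W W' : Set (Om × Bool)} (h : W ⊆ W') : inn W ⊆ inn W' := fun _ hw => h hw
lemma out_mono {W W' : Set (Om × Bool)} (h : W ⊆ W') : out W ⊆ out W' := fun _ hw => h hw

lemma null_rep_diff (x : Entry L) (W : Set (Om × Bool)) :
    omP.Null (rep x \ W) ↔ Sub x.A (inn W) ∧ Sub (out W)ᶜ x.C := by
  rw [null_omP, inn_diff, out_diff, inn_rep, out_rep]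
  have : x.Cᶜ \ out W = (out W)ᶜ \ x.C := by
    ext w; simp only [Set.mem_sdiff, mem_compl_iff]; tauto
  rw [this]

lemma null_diff_rep (x : Entry L) (W : Set (Om × Bool)) :
    omP.Null (W \ rep x) ↔ Sub (inn W) x.A ∧ Sub x.C (out W)ᶜ := by
  rw [null_omP, inn_diff, out_diff, inn_rep, out_rep]
  have : out W \ x.Cᶜ = x.C \ (out W)ᶜ := by
    ext w; simp only [Set.mem_sdiff, mem_compl_iff]; tauto
  rw [this]

def fam1 (F : Set (Entry L)) : Set (Set (Om × Bool)) := {B | ∃ x ∈ F, omP.Tie (rep x) B}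

def fam (F : Set (Entry L)) : Set (Set (Om × Bool)) := {B | B ∈ fam1 F ∨ Bᶜ ∈ fam1 F}

variable [LinearOrder L] {U : Ultrafilter Om} {F : Set (Entry L)}

lemma fam1_size (hU : ∀ W ∈ U, ¬ omB.Null W) (hG : Good U F) {B : Set (Om × Bool)}
    (hB : B ∈ fam1 F) : inn B ∉ U ∧ out B ∈ U := by
  obtain ⟨x, hx, h⟩ := hB
  refine ⟨small_of_sub hU ((null_diff_rep x B).1 h.1.1).1 (hG.1 x hx).1, ?_⟩
  have := small_of_sub hU ((null_rep_diff x B).1 h.1.2).2 (hG.1 x hx).2
  rwa [Ultrafilter.compl_notMem_iff] at this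

lemma fam1_anti (hG : Good U F) {B B' : Set (Om × Bool)} (hB : B ∈ fam1 F) (hB' : B' ∈ fam1 F)
    (hs : B ⊆ B') : B = B' := by
  obtain ⟨x, hx, h⟩ := hB
  obtain ⟨y, hy, h'⟩ := hB'
  have h1 : omP.Null (rep x \ rep y) :=
    (h.1.2.trans_diff (Blocks.null_diff_of_subset hs)).trans_diff h'.1.1
  rw [null_rep_diff, inn_rep, out_rep, compl_compl] at h1
  have := hG.2.1 x hx y hy h1.1 h1.2
  subst this
  exact h.eq_of_subset h' hs

lemma fam1_intv (hU : ∀ W ∈ U, ¬ omB.Null W) (hG : Good U F) (hS : ∀ T, Solved U F T)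
    {I X : Set (Om × Bool)} (hs : I ⊆ X) (h1 : inn I ∉ U) (h2 : out X ∈ U) :
    ∃ B ∈ fam1 F, B ⊆ I ∨ X ⊆ B ∨ (I ⊆ B ∧ B ⊆ X) := by
  obtain ⟨x, hx, h⟩ := hS (inn I, (out I)ᶜ, inn X, (out X)ᶜ) (inn_mono hs)
    (compl_subset_compl.2 (out_mono hs)) h1 (Ultrafilter.compl_notMem_iff.2 h2)
  have p1 : ¬ omP.Null (rep x) := by
    rw [null_omP, out_rep]
    exact fun h => hU _ (Ultrafilter.compl_mem_iff_notMem.2 (hG.1 x hx).2) h.2
  have p2 : ¬ omP.Null (rep x)ᶜ := by
    rw [null_omP, inn_compl, inn_rep]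
    exact fun h => hU _ (Ultrafilter.compl_mem_iff_notMem.2 (hG.1 x hx).1) h.1
  obtain ⟨C, c1, c2⟩ := Blocks.interval p1 p2 hs (by
    rw [null_rep_diff, null_diff_rep, null_diff_rep, null_rep_diff]
    rcases h with h | h | h
    · exact Or.inl h
    · exact Or.inr (Or.inl h)
    · exact Or.inr (Or.inr ⟨⟨h.1, h.2.1⟩, h.2.2⟩))
  exact ⟨C, ⟨x, hx, c1⟩, c2⟩

lemma fam_unif (hU : ∀ W ∈ U, ¬ omB.Null W) (hG : Good U F) (hS : ∀ T, Solved U F T) :
    UnifFam (fam F) := by
  refine ⟨?_, ?_, ?_, ?_⟩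
  · rintro B (hB | hB) B' (hB' | hB') hs
    · exact fam1_anti hG hB hB' hs
    · exfalso
      have a := (fam1_size hU hG hB).2
      have b := (fam1_size hU hG hB').2
      rw [out_compl, Ultrafilter.compl_mem_iff_notMem] at b
      exact b (mem_of_superset a (out_mono hs))
    · exfalso
      have a := (fam1_size hU hG hB).1
      have b := (fam1_size hU hG hB').1
      rw [inn_compl, Ultrafilter.compl_notMem_iff] at a
      exact b (mem_of_superset a (inn_mono hs))
    · exact compl_injective (fam1_anti hG hB' hB (compl_subset_compl.2 hs)).symm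
  · rintro B (⟨z, hz, hB⟩ | ⟨z, hz, hB⟩) x hx y hy
    · exact Or.inl ⟨z, hz, hB.exchange hx hy⟩
    · refine Or.inr ⟨z, hz, ?_⟩
      have := hB.exchange (x := y) (y := x) hy (fun h => h hx)
      have e : (insert y (B \ {x}))ᶜ = insert x (Bᶜ \ {y}) := by
        ext p
        simp only [mem_compl_iff, mem_insert_iff, Set.mem_sdiff, mem_singleton_iff]
        constructor
        · intro h
          by_cases hp : p = x
          · exact Or.inl hp
          · exact Or.inr ⟨fun hb => h (Or.inr ⟨hb, hp⟩), fun hp' => h (Or.inl hp')⟩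
        · rintro (rfl | h) (h' | h')
          · exact hy (h' ▸ hx)
          · exact h'.2 rfl
          · exact h.2 h'
          · exact h.1 h'.1
      rwa [e]
  · intro I X hs
    by_cases a : inn I ∉ U ∧ out X ∈ U
    · obtain ⟨B, hB, h⟩ := fam1_intv hU hG hS hs a.1 a.2
      exact ⟨B, Or.inl hB, h⟩
    by_cases b : out I ∉ U ∧ inn X ∈ U
    · obtain ⟨B, hB, h⟩ := fam1_intv hU hG hS (compl_subset_compl.2 hs)
        (by rw [inn_compl, Ultrafilter.compl_notMem_iff]; exact b.2)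
        (by rw [out_compl, Ultrafilter.compl_mem_iff_notMem]; exact b.1)
      refine ⟨Bᶜ, Or.inr (by rwa [compl_compl]), ?_⟩
      rcases h with h | h | h
      · exact Or.inr (Or.inl (subset_compl_comm.1 h))
      · exact Or.inl (compl_subset_comm.1 h)
      · exact Or.inr (Or.inr ⟨subset_compl_comm.1 h.2, compl_subset_comm.1 h.1⟩)
    by_cases c : inn I ∈ U
    · have c' : out I ∈ U := by
        by_contra c'
        exact b ⟨c', mem_of_superset c (inn_mono hs)⟩
      obtain ⟨B, hB, h⟩ := fam1_intv hU hG hS (empty_subset I) U.empty_notMem c'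
      refine ⟨B, Or.inl hB, Or.inl ?_⟩
      rcases h with h | h | h
      · exact h.trans (empty_subset _)
      · exact absurd (mem_of_superset c (inn_mono h)) (fam1_size hU hG hB).1
      · exact h.2
    · have c1 : out X ∉ U := fun h => a ⟨c, h⟩
      have c2 : inn X ∉ U := fun h => b ⟨small_mono c1 (out_mono hs), h⟩
      obtain ⟨B, hB, h⟩ := fam1_intv hU hG hS (subset_univ X) c2 univ_mem
      refine ⟨B, Or.inl hB, Or.inr (Or.inl ?_)⟩
      rcases h with h | h | h
      · exact absurd (mem_of_superset (fam1_size hU hG hB).2 (out_mono h)) c1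
      · exact (subset_univ _).trans h
      · exact h.1
  · rintro B (hB | hB)
    · exact Or.inr (by rwa [compl_compl])
    · exact Or.inl hB

lemma span_small (hU : ∀ W ∈ U, ¬ omB.Null W) (hG : Good U F) {K : Set (Om × Bool)}
    (h : ∃ B ∈ fam F, B ⊆ K) (hK : inn K ∉ U) :
    ∃ x ∈ F, Sub x.A (inn K) ∧ Sub (out K)ᶜ x.C := by
  obtain ⟨B, hB | hB, hs⟩ := h
  · obtain ⟨x, hx, h⟩ := hB
    exact ⟨x, hx, (null_rep_diff x K).1 (h.1.2.trans_diff (Blocks.null_diff_of_subset hs))⟩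
  · have a := (fam1_size hU hG hB).1
    rw [inn_compl, Ultrafilter.compl_notMem_iff] at a
    exact absurd (mem_of_superset a (inn_mono hs)) hK

lemma fam_ray [WellFoundedLT L] (hU : ∀ W ∈ U, ¬ omB.Null W) (hG : Good U F)
    (K : ℕ → Set (Om × Bool)) (hd : ∀ n, Disjoint (out (K n)) (inn (K (n + 1))))
    (hn : ∀ n, (out (K n)).Nonempty → ∃ B ∈ fam F, B ⊆ K (n + 1))
    (h0 : ∃ B ∈ fam F, B ⊆ K 0) : inn (K 0) ∈ U := by
  by_contra hK
  have key : ∀ l : L, ∀ n, ∀ x ∈ F, x.l = l → ¬ Sub (out (K n))ᶜ x.C := by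
    intro l
    induction l using WellFoundedLT.induction with
    | ind l ih =>
      intro n x hx hl h
      have a : (out (K n))ᶜ ∉ U := small_of_sub hU h (hG.1 x hx).2
      have b : inn (K (n + 1)) ⊆ (out (K n))ᶜ := (hd n).symm.subset_compl_right
      have c : (out (K n)).Nonempty :=
        Ultrafilter.nonempty_of_mem (Ultrafilter.compl_notMem_iff.1 a)
      obtain ⟨y, hy, y1, y2⟩ := span_small hU hG (hn n c) (small_mono a b)
      have := hG.2.2 x hx y hy ((y1.trans_diff (Blocks.null_diff_of_subset b)).trans_diff h)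
      exact ih y.l (hl ▸ this) (n + 1) y hy rfl y2
  obtain ⟨x, hx, -, h⟩ := span_small hU hG h0 hK
  exact key x.l 0 x hx rfl h

theorem exists_gadget : ∃ (U : Ultrafilter Om) (𝓑 : Set (Set (Om × Bool))), UnifFam 𝓑 ∧
    ∀ K : ℕ → Set (Om × Bool), (∀ n, Disjoint (out (K n)) (inn (K (n + 1)))) →
      (∀ n, (out (K n)).Nonempty → ∃ B ∈ 𝓑, B ⊆ K (n + 1)) →
      (∃ B ∈ 𝓑, B ⊆ K 0) → inn (K 0) ∈ U := by
  obtain ⟨U, hU⟩ := exists_ultra
  obtain ⟨F, hG, hS⟩ := exists_family hU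
  exact ⟨U, fam F, fam_unif hU hG hS, fam_ray hU hG⟩

end Vale.Agent.P068
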